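import Mathlib

/-!
# The cyclic text of a cycle of overlapping strings
-/

namespace Vale.Agent.P333.Cyc

/-- the window of length `m` at position `n` of the infinite word `u` -/
def win {α : Type*} (u : ℕ → α) (n m : ℕ) : List α := List.ofFn (fun t : Fin m => u (n + t))

section Win

variable {α : Type*} (u : ℕ → α)

@[simp] theorem length_win (n m : ℕ) : (win u n m).length = m := by simp [win]

theorem getElem_win (n m t : ℕ) (h : t < (win u n m).length) : (win u n m)[t] = u (n + t) := by
  simp [win]

theorem win_add (n a b : ℕ) : win u n (a + b) = win u n a ++ win u (n + a) b := by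
  apply List.ext_getElem
  · simp
  · intro t h1 h2
    rw [getElem_win, List.getElem_append]
    split_ifs with h
    · rw [getElem_win]
    · rw [getElem_win]
      rw [length_win] at h ⊢
      congr 1
      omega

theorem win_infix {n m n' m' : ℕ} (h1 : n' ≤ n) (h2 : n + m ≤ n' + m') :
    win u n m <:+: win u n' m' := by
  obtain ⟨a, rfl⟩ := Nat.exists_eq_add_of_le h1
  obtain ⟨b, hb⟩ := Nat.exists_eq_add_of_le h2
  have : m' = a + m + b := by omega
  rw [this, win_add, win_add]
  exact ⟨win u n' a, win u (n' + (a + m)) b, rfl⟩

theorem win_prefix {n m m' : ℕ} (h : m ≤ m') : win u n m <+: win u n m' := by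
  obtain ⟨b, rfl⟩ := Nat.exists_eq_add_of_le h
  rw [win_add]
  exact ⟨_, rfl⟩

theorem win_suffix {n m n' m' : ℕ} (h1 : n' ≤ n) (h2 : n + m = n' + m') :
    win u n m <:+ win u n' m' := by
  obtain ⟨a, rfl⟩ := Nat.exists_eq_add_of_le h1
  have : m' = a + m := by omega
  rw [this, win_add]
  exact ⟨_, rfl⟩

theorem win_period {p : ℕ} (hp : ∀ n, u (n + p) = u n) (n m : ℕ) :
    win u (n + p) m = win u n m := by
  unfold win
  congr 1
  funext t
  rw [← hp (n + t)]
  congr 1
  omega

end Win

/-- a cyclic sequence of strings `s 0, ..., s (k-1)`, extended periodically, with overlaps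
`o i` between `s i` and `s (i+1)` -/
structure CycData {α : Type*} (s : ℕ → List α) (o : ℕ → ℕ) (k : ℕ) : Prop where
  kpos : 0 < k
  per_s : ∀ i, s (i + k) = s i
  per_o : ∀ i, o (i + k) = o i
  lt : ∀ i, o i < (s i).length
  le : ∀ i, o i ≤ (s (i + 1)).length
  ov : ∀ i, (s i).drop ((s i).length - o i) = (s (i + 1)).take (o i)

/-- the position of the `i`-th string -/
def pos {α : Type*} (s : ℕ → List α) (o : ℕ → ℕ) (i : ℕ) : ℕ :=
  ∑ j ∈ Finset.range i, ((s j).length - o j)

variable {α : Type*} {s : ℕ → List α} {o : ℕ → ℕ} {k : ℕ}

@[simp] theorem pos_zero : pos s o 0 = 0 := by simp [pos]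

theorem pos_succ (i : ℕ) : pos s o (i + 1) = pos s o i + ((s i).length - o i) := by
  simp [pos, Finset.sum_range_succ]

namespace CycData

theorem pos_lt (h : CycData s o k) (i : ℕ) : pos s o i < pos s o (i + 1) := by
  have := h.lt i
  rw [pos_succ]
  omega

theorem strictMono (h : CycData s o k) : StrictMono (pos s o) := strictMono_nat_of_lt_succ h.pos_lt

theorem le_pos (h : CycData s o k) (i : ℕ) : i ≤ pos s o i := h.strictMono.le_apply

theorem end_le (h : CycData s o k) (i : ℕ) :
    pos s o i + (s i).length ≤ pos s o (i + 1) + (s (i + 1)).length := by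
  have h1 := h.lt i
  have h2 := h.le i
  rw [pos_succ]
  omega

theorem end_mono (h : CycData s o k) : Monotone (fun i => pos s o i + (s i).length) :=
  monotone_nat_of_le_succ h.end_le

/-- the period of the cyclic text -/
theorem pos_add (h : CycData s o k) (i : ℕ) : pos s o (i + k) = pos s o i + pos s o k := by
  induction i with
  | zero => simp
  | succ i ih =>
    have e : i + 1 + k = i + k + 1 := by omega
    rw [e, pos_succ, pos_succ, ih, h.per_s, h.per_o]
    omega

theorem per_pos (h : CycData s o k) : 0 < pos s o k := by
  have := h.strictMono h.kpos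
  simpa using this

theorem per_s_mul (h : CycData s o k) (i m : ℕ) : s (i + m * k) = s i := by
  induction m with
  | zero => simp
  | succ m ih =>
    have e : i + (m + 1) * k = i + m * k + k := by ring
    rw [e, h.per_s, ih]

theorem key (h : CycData s o k) (i i' j : ℕ) (hi : i ≤ i') (hj : j < (s i).length)
    (hp : pos s o i' ≤ pos s o i + j) :
    (s i)[j]? = (s i')[pos s o i + j - pos s o i']? := by
  induction i', hi using Nat.le_induction with
  | base =>
    congr 1
    omega
  | succ i' hi ih =>
    have hlt := h.pos_lt i'
    have ih := ih (by omega)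
    have hsome : (s i')[pos s o i + j - pos s o i']? = some (s i)[j] := by
      rw [← ih]
      exact List.getElem?_eq_getElem hj
    have hj' : pos s o i + j - pos s o i' < (s i').length := by
      by_contra hcon
      rw [List.getElem?_eq_none (by omega)] at hsome
      exact absurd hsome (by simp)
    have hlt' := h.lt i'
    rw [pos_succ] at hp hlt ⊢
    rw [ih]
    have h1 : ((s i').drop ((s i').length - o i'))[pos s o i + j
        - (pos s o i' + ((s i').length - o i'))]? = (s i')[pos s o i + j - pos s o i']? := by
      rw [List.getElem?_drop]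
      congr 1
      omega
    rw [← h1, h.ov i', List.getElem?_take, if_pos (by omega)]

/-- the index of the string that covers position `n` -/
theorem exists_idx (h : CycData s o k) (n : ℕ) :
    ∃ i, pos s o i ≤ n ∧ n < pos s o (i + 1) ∧ ∀ i', pos s o i' ≤ n → i' ≤ i := by
  classical
  refine ⟨Nat.findGreatest (fun i => pos s o i ≤ n) n, ?_, ?_, ?_⟩
  · exact Nat.findGreatest_spec (P := fun i => pos s o i ≤ n) (m := 0) (Nat.zero_le _) (by simp)
  · by_contra hcon
    push Not at hcon
    have h1 := h.le_pos (Nat.findGreatest (fun i => pos s o i ≤ n) n + 1)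
    have h2 := Nat.le_findGreatest (P := fun i => pos s o i ≤ n) (h1.trans hcon) hcon
    omega
  · intro i' hi'
    exact Nat.le_findGreatest ((h.le_pos i').trans hi') hi'

/-- the cyclic text -/
theorem exists_text (h : CycData s o k) :
    ∃ u : ℕ → α, (∀ i j (hj : j < (s i).length), u (pos s o i + j) = (s i)[j]) ∧
      (∀ n, u (n + pos s o k) = u n) := by
  choose idx h1 h2 h3 using h.exists_idx
  have hlen : ∀ n, n - pos s o (idx n) < (s (idx n)).length := by
    intro n
    have := h1 n
    have := h2 n
    have := h.lt (idx n)
    rw [pos_succ] at *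
    omega
  have hu : ∀ i j (hj : j < (s i).length),
      (s (idx (pos s o i + j)))[pos s o i + j - pos s o (idx (pos s o i + j))]'(hlen _)
        = (s i)[j] := by
    intro i j hj
    have := h.key i (idx (pos s o i + j)) j (h3 _ i (by omega)) hj (h1 _)
    rw [List.getElem?_eq_getElem hj, List.getElem?_eq_getElem (hlen _)] at this
    exact (Option.some.inj this).symm
  refine ⟨fun n => (s (idx n))[n - pos s o (idx n)]'(hlen n), hu, ?_⟩
  intro n
  have e : n + pos s o k = pos s o (idx n + k) + (n - pos s o (idx n)) := by
    rw [h.pos_add]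
    have := h1 n
    omega
  have hj : n - pos s o (idx n) < (s (idx n + k)).length := by
    rw [h.per_s]; exact hlen n
  have := hu (idx n + k) (n - pos s o (idx n)) hj
  rw [← e] at this
  simp only [h.per_s] at this
  exact this

end CycData

/-- `u` is the cyclic text of the data -/
structure IsText {α : Type*} (s : ℕ → List α) (o : ℕ → ℕ) (k : ℕ) (u : ℕ → α) : Prop extends
    CycData s o k where
  text : ∀ i j (hj : j < (s i).length), u (pos s o i + j) = (s i)[j]
  period : ∀ n, u (n + pos s o k) = u n

theorem CycData.exists_isText (h : CycData s o k) : ∃ u, IsText s o k u := by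
  obtain ⟨u, h1, h2⟩ := h.exists_text
  exact ⟨u, h, h1, h2⟩

namespace IsText

variable {u : ℕ → α}

theorem win_eq (h : IsText s o k u) (i : ℕ) : win u (pos s o i) (s i).length = s i := by
  apply List.ext_getElem
  · simp
  · intro t h1 h2
    rw [getElem_win]
    exact h.text i t h2

/-- every window of length at most (smallest overlap) + 1 lies inside one of the strings -/
theorem win_infix_some (h : IsText s o k u) (z : ℕ) (hz : ∀ i, z ≤ o i) (n : ℕ) :
    ∃ i, win u n (z + 1) <:+: s i := by
  obtain ⟨i, h1, h2, -⟩ := h.exists_idx n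
  refine ⟨i, ?_⟩
  have := hz i
  have := h.lt i
  rw [pos_succ] at h2
  have := win_infix u (n := n) (m := z + 1) (n' := pos s o i) (m' := (s i).length) h1 (by omega)
  rwa [h.win_eq] at this

/-- the same for any window that is short compared with the link it crosses -/
theorem win_infix_some' (h : IsText s o k u) (m : ℕ) (hm : ∀ i, m ≤ o i + 1) (n : ℕ) :
    ∃ i, win u n m <:+: s i := by
  obtain ⟨i, h1, h2, -⟩ := h.exists_idx n
  refine ⟨i, ?_⟩
  have := hm i
  have := h.lt i
  rw [pos_succ] at h2
  have := win_infix u (n := n) (m := m) (n' := pos s o i) (m' := (s i).length) h1 (by omega)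
  rwa [h.win_eq] at this

/-- the cycle opened at the link `i` contains all strings -/
theorem infix_opened (h : IsText s o k u) (i j : ℕ) :
    s j <:+: win u (pos s o (i + 1)) (pos s o k + o i) := by
  -- replace `j` by its representative between `i + 1` and `i + k`
  have hk := h.kpos
  obtain ⟨j', hj1, hj2, hj3⟩ : ∃ j', i + 1 ≤ j' ∧ j' ≤ i + k ∧ s j' = s j := by
    obtain ⟨q, hq⟩ : ∃ q, i + 1 ≤ j + q * k := ⟨i + 1, by nlinarith⟩
    have hmod := Nat.mod_lt (j + q * k - (i + 1)) hk
    have hdm := Nat.div_add_mod (j + q * k - (i + 1)) k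
    refine ⟨i + 1 + (j + q * k - (i + 1)) % k, by omega, by omega, ?_⟩
    have e : i + 1 + (j + q * k - (i + 1)) % k + ((j + q * k - (i + 1)) / k) * k = j + q * k := by
      have : (j + q * k - (i + 1)) / k * k = k * ((j + q * k - (i + 1)) / k) := mul_comm _ _
      omega
    rw [← h.per_s_mul (i + 1 + (j + q * k - (i + 1)) % k) ((j + q * k - (i + 1)) / k), e,
      h.per_s_mul]
  rw [← hj3, ← h.win_eq j']
  apply win_infix
  · exact h.strictMono.monotone hj1
  · have h1 := h.end_mono hj2
    simp only at h1
    rw [h.pos_add, h.per_s] at h1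
    have h2 := h.lt i
    rw [pos_succ]
    omega

/-- the cycle opened at the link `i` starts with `s (i+1)` -/
theorem prefix_opened (h : IsText s o k u) (i : ℕ) :
    s (i + 1) <+: win u (pos s o (i + 1)) (pos s o k + o i) := by
  have hk := h.kpos
  have h1 := h.end_mono (show i + 1 ≤ i + k by omega)
  simp only at h1
  rw [h.pos_add, h.per_s] at h1
  have h2 := h.lt i
  have h3 : (s (i + 1)).length ≤ pos s o k + o i := by
    rw [pos_succ] at h1
    omega
  have := win_prefix u (n := pos s o (i + 1)) h3
  rwa [h.win_eq] at this

/-- the cycle opened at the link `i` ends with `s i` -/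
theorem suffix_opened (h : IsText s o k u) (i : ℕ) :
    s i <:+ win u (pos s o (i + 1)) (pos s o k + o i) := by
  have hk := h.kpos
  have h1 := h.strictMono.monotone (show i + 1 ≤ i + k by omega)
  have h2 := h.lt i
  have e : pos s o (i + k) + (s (i + k)).length = pos s o (i + 1) + (pos s o k + o i) := by
    rw [h.pos_add, h.per_s, pos_succ]
    omega
  have := win_suffix u (n := pos s o (i + k)) (m := (s (i + k)).length)
    (n' := pos s o (i + 1)) (m' := pos s o k + o i) h1 e
  rwa [h.win_eq, h.per_s] at this

/-- one full lap around the cycle, from a string to its next copy -/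
theorem prefix_lap (h : IsText s o k u) (i : ℕ) :
    s i <+: win u (pos s o i) (pos s o k + (s i).length) := by
  have := win_prefix u (n := pos s o i)
    (show (s i).length ≤ pos s o k + (s i).length by omega)
  rwa [h.win_eq] at this

theorem suffix_lap (h : IsText s o k u) (i : ℕ) :
    s i <:+ win u (pos s o i) (pos s o k + (s i).length) := by
  have := win_suffix u (n := pos s o (i + k)) (m := (s (i + k)).length)
    (n' := pos s o i) (m' := pos s o k + (s i).length)
    (h.strictMono.monotone (by omega)) (by rw [h.pos_add, h.per_s]; omega)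
  rwa [h.win_eq, h.per_s] at this

/-- the cycle opened at the link `i` is a prefix of the lap at `i + 1` -/
theorem opened_prefix_lap (h : IsText s o k u) (i : ℕ) :
    win u (pos s o (i + 1)) (pos s o k + o i)
      <+: win u (pos s o (i + 1)) (pos s o k + (s (i + 1)).length) := by
  apply win_prefix
  have := h.le i
  omega

theorem win_per (h : IsText s o k u) (n m : ℕ) : win u (n + pos s o k) m = win u n m :=
  win_period u h.period n m

end IsText

/-- the data of a cycle of a permutation -/
theorem cycData_of_perm {ι : Type*} (S : ι → List α) (σ : Equiv.Perm ι) (ov : ι → ℕ)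
    (c : ι) (hc : 0 < Function.minimalPeriod σ c)
    (hlt : ∀ i, ov i < (S i).length) (hle : ∀ i, ov i ≤ (S (σ i)).length)
    (hov : ∀ i, (S i).drop ((S i).length - ov i) = (S (σ i)).take (ov i)) :
    CycData (fun n => S (σ^[n] c)) (fun n => ov (σ^[n] c)) (Function.minimalPeriod σ c) where
  kpos := hc
  per_s := by
    intro i
    simp only [Function.iterate_add_apply, Function.iterate_minimalPeriod]
  per_o := by
    intro i
    simp only [Function.iterate_add_apply, Function.iterate_minimalPeriod]
  lt := fun i => hlt _
  le := by
    intro i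
    simp only [Function.iterate_succ_apply']
    exact hle _
  ov := by
    intro i
    simp only [Function.iterate_succ_apply']
    exact hov _

end Vale.Agent.P333.Cyc
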