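import Vale.Agent.P333.ST.CycSort

/-! Factor-free families inside a periodic word, and minimum cycle covers. -/

namespace Vale.Agent.P333.ST

open Finset

universe u

variable {A : Type u}

/-- `o` is the length of a proper overlap of `a` with `b`. -/
def OvLen (a b : List A) (o : ℕ) : Prop :=
  o < a.length ∧ o < b.length ∧ a.drop (a.length - o) = b.take o

theorem periodic_add_mul {v : ℕ → A} {q : ℕ} (hv : ∀ n, v (n + q) = v n) (n k : ℕ) :
    v (n + k * q) = v n := by
  induction k with
  | zero => simp
  | succ k ih =>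
    have : n + (k + 1) * q = n + k * q + q := by ring
    rw [this, hv, ih]

/-- A window of a word `v` inside another window gives an infix. -/
theorem window_infix {v : ℕ → A} {a b : List A} {p r : ℕ}
    (ha : ∀ k (h : k < a.length), a[k] = v (p + k))
    (hb : ∀ k (h : k < b.length), b[k] = v (r + k))
    (h1 : p ≤ r) (h2 : r + b.length ≤ p + a.length) : b <:+: a := by
  refine ⟨a.take (r - p), a.drop (r - p + b.length), ?_⟩
  have hb' : b = (a.drop (r - p)).take b.length := by
    apply List.ext_getElem
    · simp only [List.length_take, List.length_drop]; omega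
    · intro k h3 h4
      rw [List.getElem_take, List.getElem_drop, ha _ (by omega), hb _ h3]
      congr 1; omega
  rw [List.append_assoc]
  conv_lhs => rw [hb']
  rw [List.length_take, List.length_drop]
  have e : r - p + min b.length (a.length - (r - p)) = r - p + b.length := by omega
  rw [e, ← List.drop_drop, List.take_append_drop, List.take_append_drop]

/-- Two windows of a word overlap. -/
theorem window_ov {v : ℕ → A} {a b : List A} {p r : ℕ}
    (ha : ∀ k (h : k < a.length), a[k] = v (p + k))
    (hb : ∀ k (h : k < b.length), b[k] = v (r + k))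
    (h1 : p < r) (h2 : p + a.length < r + b.length) :
    OvLen a b (p + a.length - r) ∨ (a.length ≤ r - p) := by
  by_cases h : a.length ≤ r - p
  · exact Or.inr h
  · left
    refine ⟨by omega, by omega, ?_⟩
    apply List.ext_getElem
    · simp only [List.length_take, List.length_drop]; omega
    · intro k h3 h4
      simp only [List.length_take, List.length_drop] at h3 h4
      rw [List.getElem_take, List.getElem_drop, ha _ (by omega), hb _ (by omega)]
      congr 1; omega

/-- **Cover lemma.** A factor-free family of nonempty strings which occur in a `q`-periodic word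
has a permutation with proper overlaps of total cost at most `q`. -/
theorem cover_cost {κ : Type*} [Fintype κ] [Nonempty κ] (s : κ → List A) (q : ℕ) (hq : 0 < q)
    (v : ℕ → A) (hv : ∀ n, v (n + q) = v n)
    (hocc : ∀ i, ∃ P : ℕ, ∀ k (h : k < (s i).length), (s i)[k] = v (P + k))
    (hfree : ∀ i j, s i <:+: s j → i = j) (hne : ∀ i, s i ≠ []) :
    ∃ (τ : Equiv.Perm κ) (o : κ → ℕ), (∀ i, OvLen (s i) (s (τ i)) (o i)) ∧
      ∑ i, ((s i).length - o i) ≤ q := by
  classical
  have hlen : ∀ i, 0 < (s i).length := fun i => List.length_pos_iff.2 (hne i)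
  choose P hP using hocc
  -- positions below q
  have hp : ∀ i k (h : k < (s i).length), (s i)[k] = v (P i % q + k) := by
    intro i k h
    rw [hP i k h]
    have e : P i + k = P i % q + k + (P i / q) * q := by
      have := Nat.mod_add_div (P i) q
      have e2 : (P i / q) * q = q * (P i / q) := Nat.mul_comm _ _
      omega
    rw [e, periodic_add_mul hv]
  have hp2 : ∀ i k (h : k < (s i).length), (s i)[k] = v (P i % q + q + k) := by
    intro i k h
    rw [hp i k h]
    have e : P i % q + q + k = P i % q + k + q := by omega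
    rw [e, hv]
  have hinj : Function.Injective (fun i => P i % q) := by
    intro i j hij
    simp only at hij
    rcases le_total (s i).length (s j).length with h | h
    · exact hfree i j (window_infix (v := v) (hp j) (hp i) hij.ge (by omega))
    · exact (hfree j i (window_infix (v := v) (hp i) (hp j) hij.le (by omega))).symm
  obtain ⟨τ, g, hg0, hg1, hg2⟩ := exists_cyclic_perm q (fun i => P i % q)
    (fun i => Nat.mod_lt _ hq) hinj
  have key : ∀ i, OvLen (s i) (s (τ i)) ((s i).length - g i) := by
    intro i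
    -- a position of `s (τ i)` at distance `g i` after `P i % q`
    have hb : ∀ k (h : k < (s (τ i)).length), (s (τ i))[k] = v (P i % q + g i + k) := by
      intro k h
      rcases hg1 i with h1 | h1
      · rw [h1]; exact hp _ k h
      · rw [h1]; exact hp2 _ k h
    have hend : P i % q + (s i).length < P i % q + g i + (s (τ i)).length := by
      by_contra hcon
      have h2 : s (τ i) <:+: s i :=
        window_infix (v := v) (hp i) hb (by omega) (by omega)
      have h3 := hfree _ _ h2
      have := hg0 i
      rw [h3] at hcon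
      omega
    rcases window_ov (v := v) (hp i) hb (by have := hg0 i; omega) hend with h | h
    · have e : P i % q + (s i).length - (P i % q + g i) = (s i).length - g i := by omega
      rwa [e] at h
    · have e : (s i).length - g i = 0 := by omega
      rw [e]
      exact ⟨hlen i, hlen _, by simp⟩
  refine ⟨τ, fun i => (s i).length - g i, key, ?_⟩
  calc ∑ i, ((s i).length - ((s i).length - g i)) ≤ ∑ i, g i :=
        Finset.sum_le_sum (fun i _ => by omega)
    _ = q := hg2

/-- In a minimum cycle cover, a set of cycles all of whose strings occur in a `q`-periodic word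
has cost at most `q`. -/
theorem min_cover_le {ι : Type*} [Fintype ι] [DecidableEq ι] (s : ι → List A)
    (hfree : ∀ i j, s i <:+: s j → i = j) (hne : ∀ i, s i ≠ [])
    (σ : Equiv.Perm ι) (o : ι → ℕ) (ho : ∀ i, OvLen (s i) (s (σ i)) (o i))
    (hmin : ∀ (τ : Equiv.Perm ι) (o' : ι → ℕ), (∀ i, OvLen (s i) (s (τ i)) (o' i)) →
      ∑ i, ((s i).length - o i) ≤ ∑ i, ((s i).length - o' i))
    (C : Finset ι) (hC : ∀ i, σ i ∈ C ↔ i ∈ C) (q : ℕ) (hq : 0 < q)
    (v : ℕ → A) (hv : ∀ n, v (n + q) = v n)
    (hocc : ∀ i ∈ C, ∃ P : ℕ, ∀ k (h : k < (s i).length), (s i)[k] = v (P + k)) :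
    ∑ i ∈ C, ((s i).length - o i) ≤ q := by
  classical
  rcases C.eq_empty_or_nonempty with h0 | h0
  · rw [h0]; simp
  have : Nonempty {i // i ∈ C} := ⟨⟨h0.choose, h0.choose_spec⟩⟩
  obtain ⟨τ, oτ, h1, h2⟩ := cover_cost (fun i : {i // i ∈ C} => s i) q hq v hv
    (fun i => hocc i i.2) (fun i j hij => Subtype.ext (hfree _ _ hij)) (fun i => hne _)
  let en : Equiv.Perm {i // ¬ i ∈ C} := σ.subtypePerm (fun i => by rw [not_iff_not]; exact hC i)
  let τ' : Equiv.Perm ι := Equiv.Perm.subtypeCongr τ en
  let o' : ι → ℕ := fun i => if h : i ∈ C then oτ ⟨i, h⟩ else o i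
  have hτ1 : ∀ i (h : i ∈ C), τ' i = (τ ⟨i, h⟩ : ι) := by
    intro i h
    exact Equiv.Perm.subtypeCongr.left_apply τ en h
  have hτ2 : ∀ i (h : i ∉ C), τ' i = σ i := by
    intro i h
    have := Equiv.Perm.subtypeCongr.right_apply τ en h
    rw [show τ' i = _ from this]
    rfl
  have hval : ∀ i, OvLen (s i) (s (τ' i)) (o' i) := by
    intro i
    by_cases h : i ∈ C
    · rw [hτ1 i h]
      simp only [o', dif_pos h]
      exact h1 ⟨i, h⟩
    · rw [hτ2 i h]
      simp only [o', dif_neg h]
      exact ho i
  have h3 := hmin τ' o' hval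
  have e1 : ∑ i, ((s i).length - o i) = ∑ i ∈ C, ((s i).length - o i) +
      ∑ i ∈ Cᶜ, ((s i).length - o i) := (Finset.sum_add_sum_compl C _).symm
  have e2 : ∑ i, ((s i).length - o' i) = ∑ i ∈ C, ((s i).length - o' i) +
      ∑ i ∈ Cᶜ, ((s i).length - o' i) := (Finset.sum_add_sum_compl C _).symm
  have e3 : ∑ i ∈ Cᶜ, ((s i).length - o' i) = ∑ i ∈ Cᶜ, ((s i).length - o i) := by
    refine Finset.sum_congr rfl (fun i hi => ?_)
    have : i ∉ C := Finset.mem_compl.1 hi
    simp only [o', dif_neg this]
  have e4 : ∑ i ∈ C, ((s i).length - o' i) = ∑ i : {i // i ∈ C}, ((s i).length - oτ i) := by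
    rw [← Finset.sum_coe_sort C]
    refine Finset.sum_congr rfl (fun i _ => ?_)
    have : (i : ι) ∈ C := i.2
    simp only [o', dif_pos this]
  omega

/-- Every common superstring bounds the cost of some cycle cover. -/
theorem cover_le_superstring {κ : Type*} [Fintype κ] [Nonempty κ] (s : κ → List A)
    (hfree : ∀ i j, s i <:+: s j → i = j) (hne : ∀ i, s i ≠ [])
    (T : List A) (hT : ∀ i, s i <:+: T) :
    ∃ (τ : Equiv.Perm κ) (o : κ → ℕ), (∀ i, OvLen (s i) (s (τ i)) (o i)) ∧
      ∑ i, ((s i).length - o i) ≤ T.length := by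
  have i0 : κ := Classical.arbitrary κ
  have hlen : 0 < T.length := by
    have h1 := (hT i0).length_le
    have h2 := List.length_pos_iff.2 (hne i0)
    omega
  refine cover_cost s T.length hlen (fun n => T[n % T.length]'(Nat.mod_lt _ hlen)) ?_ ?_ hfree hne
  · intro n
    simp
  · intro i
    obtain ⟨l, r, hlr⟩ := hT i
    refine ⟨l.length, fun k h => ?_⟩
    have h1 : l.length + k < T.length := by
      rw [← hlr]; simp only [List.length_append]; omega
    have h2 : (l.length + k) % T.length = l.length + k := Nat.mod_eq_of_lt h1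
    simp only [h2]
    subst hlr
    rw [List.getElem_append_left (by simp only [List.length_append]; omega),
      List.getElem_append_right (by omega)]
    simp

/-- A cycle (or a union of cycles) of a minimum cycle cover: no smaller period. -/
theorem min_cover_prim {ι : Type*} [Fintype ι] [DecidableEq ι] (s : ι → List A)
    (hfree : ∀ i j, s i <:+: s j → i = j) (hne : ∀ i, s i ≠ [])
    (σ : Equiv.Perm ι) (o : ι → ℕ) (ho : ∀ i, OvLen (s i) (s (σ i)) (o i))
    (hmin : ∀ (τ : Equiv.Perm ι) (o' : ι → ℕ), (∀ i, OvLen (s i) (s (τ i)) (o' i)) →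
      ∑ i, ((s i).length - o i) ≤ ∑ i, ((s i).length - o' i))
    (C : Finset ι) (hC : ∀ i, σ i ∈ C ↔ i ∈ C)
    (v : ℕ → A)
    (hocc : ∀ i ∈ C, ∃ P : ℕ, ∀ k (h : k < (s i).length), (s i)[k] = v (P + k))
    (q : ℕ) (hq : 0 < q) (hlt : q < ∑ i ∈ C, ((s i).length - o i)) :
    ∃ n, v (n + q) ≠ v n := by
  by_contra hcon
  push Not at hcon
  have := min_cover_le s hfree hne σ o ho hmin C hC q hq v hcon hocc
  omega

/-- Two different cycles of a minimum cycle cover are not conjugate. -/
theorem min_cover_nonconj {ι : Type*} [Fintype ι] [DecidableEq ι] (s : ι → List A)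
    (hfree : ∀ i j, s i <:+: s j → i = j) (hne : ∀ i, s i ≠ [])
    (σ : Equiv.Perm ι) (o : ι → ℕ) (ho : ∀ i, OvLen (s i) (s (σ i)) (o i))
    (hmin : ∀ (τ : Equiv.Perm ι) (o' : ι → ℕ), (∀ i, OvLen (s i) (s (τ i)) (o' i)) →
      ∑ i, ((s i).length - o i) ≤ ∑ i, ((s i).length - o' i))
    (C D : Finset ι) (hC : ∀ i, σ i ∈ C ↔ i ∈ C) (hD : ∀ i, σ i ∈ D ↔ i ∈ D)
    (hCD : Disjoint C D) (hC0 : C.Nonempty) (hD0 : D.Nonempty)
    (v w : ℕ → A) (hv : ∀ n, v (n + ∑ i ∈ C, ((s i).length - o i)) = v n)
    (hoccC : ∀ i ∈ C, ∃ P : ℕ, ∀ k (h : k < (s i).length), (s i)[k] = v (P + k))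
    (hoccD : ∀ i ∈ D, ∃ P : ℕ, ∀ k (h : k < (s i).length), (s i)[k] = w (P + k))
    (c : ℕ) : ∃ n, v (n + c) ≠ w n := by
  by_contra hcon
  push Not at hcon
  have hpos : ∀ E : Finset ι, E.Nonempty → 0 < ∑ i ∈ E, ((s i).length - o i) := by
    intro E hE
    refine Finset.sum_pos (fun i _ => ?_) hE
    have := (ho i).1
    omega
  have h1 := min_cover_le s hfree hne σ o ho hmin (C ∪ D)
    (fun i => by rw [Finset.mem_union, Finset.mem_union, hC, hD]) _ (hpos C hC0) v hv (by
      intro i hi
      rcases Finset.mem_union.1 hi with h | h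
      · exact hoccC i h
      · obtain ⟨P, hP⟩ := hoccD i h
        refine ⟨P + c, fun k hk => ?_⟩
        rw [hP k hk, ← hcon]
        congr 1; omega)
  rw [Finset.sum_union hCD] at h1
  have := hpos D hD0
  omega

end Vale.Agent.P333.ST
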