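import Vale.Agent.P333.Rings
import Vale.Agent.P333.ST.Cyc
import Vale.Agent.P333.ST.Necklace

/-! The total length of the opened cycles of a minimum cycle cover. -/

namespace Vale.Agent.P333.ST

open Finset Function

universe u

variable {A : Type u}

theorem win_conv (v : ℕ → A) (c k : ℕ) : P333R.win v c k = Cyc.win v c k := by
  apply List.ext_getElem
  · simp [P333R.win, Cyc.win]
  · intro i h1 h2
    simp [P333R.win, Cyc.win]

theorem minimalPeriod_pos_perm {ι : Type*} [Finite ι] (σ : Equiv.Perm ι) (c : ι) :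
    0 < minimalPeriod σ c := by
  refine Function.minimalPeriod_pos_of_mem_periodicPts ?_
  exact ⟨orderOf σ, orderOf_pos σ, by
    rw [Function.IsPeriodicPt, Function.IsFixedPt, Equiv.Perm.iterate_eq_pow, pow_orderOf_eq_one]
    rfl⟩

theorem sameCycle_iff_exists_iterate {ι : Type*} [Finite ι] (σ : Equiv.Perm ι) (c i : ι) :
    σ.SameCycle c i ↔ ∃ j < minimalPeriod σ c, σ^[j] c = i := by
  constructor
  · intro h
    obtain ⟨j, hj⟩ := h.exists_nat_pow_eq
    refine ⟨j % minimalPeriod σ c, Nat.mod_lt _ (minimalPeriod_pos_perm σ c), ?_⟩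
    rw [Function.iterate_mod_minimalPeriod_eq, Equiv.Perm.iterate_eq_pow]
    exact hj
  · rintro ⟨j, -, rfl⟩
    rw [Equiv.Perm.iterate_eq_pow]
    exact ⟨(j : ℤ), by simp⟩

/-- The sum over a cycle of a permutation. -/
theorem orbit_sum {ι : Type*} [Fintype ι] [DecidableEq ι] (σ : Equiv.Perm ι) (c : ι)
    (f : ι → ℕ) :
    ∑ i ∈ univ.filter (fun i => σ.SameCycle c i), f i =
      ∑ j ∈ range (minimalPeriod σ c), f (σ^[j] c) := by
  symm
  refine Finset.sum_nbij (fun j => σ^[j] c) ?_ ?_ ?_ (fun _ _ => rfl)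
  · intro j hj
    simp only [Finset.mem_filter, Finset.mem_univ, true_and]
    exact (sameCycle_iff_exists_iterate σ c _).2 ⟨j, by simpa using hj, rfl⟩
  · intro j hj j' hj' h
    refine Function.iterate_injOn_Iio_minimalPeriod (f := σ) (x := c) ?_ ?_ h
    · simpa using hj
    · simpa using hj'
  · intro i hi
    simp only [Finset.coe_filter, Finset.mem_univ, true_and, Set.mem_setOf_eq] at hi
    obtain ⟨j, h1, h2⟩ := (sameCycle_iff_exists_iterate σ c i).1 hi
    exact ⟨j, by simpa using h1, h2⟩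

/-- The cyclic text of the cycle of `c`. -/
theorem exists_text_perm {ι : Type*} [Fintype ι] [DecidableEq ι] (s : ι → List A)
    (σ : Equiv.Perm ι) (o : ι → ℕ) (ho : ∀ i, OvLen (s i) (s (σ i)) (o i)) (c : ι) :
    ∃ u : ℕ → A, Cyc.IsText (fun n => s (σ^[n] c)) (fun n => o (σ^[n] c))
      (minimalPeriod σ c) u :=
  (Cyc.cycData_of_perm s σ o c (minimalPeriod_pos_perm σ c) (fun i => (ho i).1)
    (fun i => (ho i).2.1.le) (fun i => (ho i).2.2)).exists_isText

theorem pos_eq_sum {ι : Type*} [Fintype ι] [DecidableEq ι] (s : ι → List A)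
    (σ : Equiv.Perm ι) (o : ι → ℕ) (c : ι) :
    Cyc.pos (fun n => s (σ^[n] c)) (fun n => o (σ^[n] c)) (minimalPeriod σ c) =
      ∑ i ∈ univ.filter (fun i => σ.SameCycle c i), ((s i).length - o i) := by
  rw [orbit_sum]
  rfl

/-- **Minimum cycle covers.** If every cycle of a minimum cycle cover is opened at a link `r` with
the smallest overlap, the total length of the opened cycles is at most twice the cost of the
cover plus the length of any common superstring. -/
theorem sum_opened_le [DecidableEq A] {ι : Type*} [Fintype ι] [DecidableEq ι] (s : ι → List A)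
    (hfree : ∀ i j, s i <:+: s j → i = j) (hne : ∀ i, s i ≠ [])
    (σ : Equiv.Perm ι) (o : ι → ℕ) (ho : ∀ i, OvLen (s i) (s (σ i)) (o i))
    (hmin : ∀ (τ : Equiv.Perm ι) (o' : ι → ℕ), (∀ i, OvLen (s i) (s (τ i)) (o' i)) →
      ∑ i, ((s i).length - o i) ≤ ∑ i, ((s i).length - o' i))
    (T : List A) (hT : ∀ i, s i <:+: T)
    (R : Finset ι) (hR : ∀ r ∈ R, ∀ r' ∈ R, σ.SameCycle r r' → r = r')
    (hz : ∀ r ∈ R, ∀ i, σ.SameCycle r i → o r ≤ o i) :
    ∑ r ∈ R, ((∑ i ∈ univ.filter (fun i => σ.SameCycle r i), ((s i).length - o i)) + o r) ≤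
      2 * ∑ i, ((s i).length - o i) + T.length := by
  classical
  choose u hu using exists_text_perm s σ o ho
  let C : ι → Finset ι := fun r => univ.filter (fun i => σ.SameCycle r i)
  let π : ι → ℕ := fun r => ∑ i ∈ C r, ((s i).length - o i)
  have hCinv : ∀ r i, σ i ∈ C r ↔ i ∈ C r := by
    intro r i
    simp only [C, Finset.mem_filter, Finset.mem_univ, true_and]
    exact Equiv.Perm.sameCycle_apply_right
  have hCself : ∀ r, r ∈ C r := by
    intro r
    simp only [C, Finset.mem_filter, Finset.mem_univ, true_and]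
    exact Equiv.Perm.SameCycle.refl σ r
  have hdisj : ∀ r ∈ R, ∀ r' ∈ R, r ≠ r' → Disjoint (C r) (C r') := by
    intro r hr r' hr' hne'
    rw [Finset.disjoint_left]
    intro i hi hi'
    simp only [C, Finset.mem_filter, Finset.mem_univ, true_and] at hi hi'
    exact hne' (hR r hr r' hr' (hi.trans hi'.symm))
  have hpos : ∀ r, Cyc.pos (fun n => s (σ^[n] r)) (fun n => o (σ^[n] r)) (minimalPeriod σ r) =
      π r := fun r => pos_eq_sum s σ o r
  have hper : ∀ r n, u r (n + π r) = u r n := by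
    intro r n
    rw [← hpos r]
    exact (hu r).period n
  have hocc : ∀ r, ∀ i ∈ C r, ∃ P : ℕ, ∀ k (h : k < (s i).length), (s i)[k] = u r (P + k) := by
    intro r i hi
    simp only [C, Finset.mem_filter, Finset.mem_univ, true_and] at hi
    obtain ⟨j, -, rfl⟩ := (sameCycle_iff_exists_iterate σ r i).1 hi
    exact ⟨_, fun k h => ((hu r).text j k h).symm⟩
  have hrings := P333R.rings_sum_le T (I := {r // r ∈ R}) (fun r => π r) (fun r => o r)
    (fun r => u r) (fun r n => hper r n)
    (fun r q hq hlt => min_cover_prim s hfree hne σ o ho hmin (C r) (hCinv r) (u r) (hocc r)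
      q hq hlt)
    (fun r => by
      have := (hu r).per_pos
      rw [hpos r] at this
      exact this)
    (fun r r' hne' _ c => min_cover_nonconj s hfree hne σ o ho hmin (C r) (C r') (hCinv r)
      (hCinv r') (hdisj r r.2 r' r'.2 (fun h => hne' (Subtype.ext h))) ⟨_, hCself r⟩
      ⟨_, hCself r'⟩ (u r) (u r') (hper r) (hocc r) (hocc r') c)
    (fun r c => by
      rw [win_conv]
      obtain ⟨i, hi⟩ := (hu r).win_infix_some (o r) (fun n => hz r r.2 _ (by
        rw [Equiv.Perm.iterate_eq_pow]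
        exact ⟨(n : ℤ), by simp⟩)) c
      exact hi.trans (hT _))
  have h1 : ∑ r ∈ R, (o r + 1 - π r) ≤ T.length := by
    rw [← Finset.sum_coe_sort R]
    exact hrings
  have h2 : ∑ r ∈ R, π r ≤ ∑ i, ((s i).length - o i) := by
    have h3 : ∑ r ∈ R, π r = ∑ i ∈ R.biUnion C, ((s i).length - o i) := by
      rw [Finset.sum_biUnion]
      intro r hr r' hr' hne'
      exact hdisj r hr r' hr' hne'
    rw [h3]
    exact Finset.sum_le_sum_of_subset (Finset.subset_univ _)
  calc ∑ r ∈ R, (π r + o r) ≤ ∑ r ∈ R, (2 * π r + (o r + 1 - π r)) :=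
        Finset.sum_le_sum (fun r _ => by omega)
    _ = 2 * ∑ r ∈ R, π r + ∑ r ∈ R, (o r + 1 - π r) := by
        rw [Finset.sum_add_distrib, Finset.mul_sum]
    _ ≤ _ := by omega

end Vale.Agent.P333.ST
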