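import Mathlib

/-!
P333, ratio `3 - δ` for the shortest superstring problem: definitions.

`ov s t` is the longest proper overlap of `s` and `t`; a cycle cover of a finite family `S` is a
permutation `σ` of `S`, of cost `∑ s, (|s| - ov s (σ s))`. The word `pathWord σ s k` is the merge
`s → σ s → ... → σ^k s` along the longest overlaps.
-/

namespace Vale.Agent.P333.ST

variable {α : Type*} [DecidableEq α]

/-- `k` is a proper overlap length of `s` and `t`. -/
def IsOv (s t : List α) (k : ℕ) : Prop :=
  k < s.length ∧ k < t.length ∧ t.take k = s.drop (s.length - k)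

instance (s t : List α) (k : ℕ) : Decidable (IsOv s t k) := by
  unfold IsOv; infer_instance

/-- Length of the longest proper overlap (a proper suffix of `s` that is a proper prefix of `t`). -/
def ov (s t : List α) : ℕ := Nat.findGreatest (IsOv s t) s.length

/-- The family is factor-free. -/
def Free (S : Finset (List α)) : Prop := ∀ s ∈ S, ∀ t ∈ S, s <:+: t → s = t

/-- Common superstring. -/
def IsSuper (S : Finset (List α)) (T : List α) : Prop := ∀ s ∈ S, s <:+: T

variable {S : Finset (List α)}

/-- Distance: length that `s` contributes before `σ s` starts. -/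
def dist (σ : Equiv.Perm S) (s : S) : ℕ := s.1.length - ov s.1 (σ s).1

/-- Cost of a cycle cover. -/
def cost (σ : Equiv.Perm S) : ℕ := ∑ s : S, dist σ s

/-- Minimum cycle cover. -/
def IsMin (σ : Equiv.Perm S) : Prop := ∀ τ : Equiv.Perm S, cost σ ≤ cost τ

/-- Merge `s → σ s → ... → σ^k s` along the longest overlaps. -/
def pathWord (σ : Equiv.Perm S) (s : S) : ℕ → List α
  | 0 => s.1
  | k + 1 => pathWord σ s k ++
      ((σ ^ (k + 1)) s).1.drop (ov ((σ ^ k) s).1 ((σ ^ (k + 1)) s).1)

/-- Number of strings in the cycle of `s`. -/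
noncomputable def cyc (σ : Equiv.Perm S) (s : S) : ℕ := Function.minimalPeriod σ s

/-- The cycle of `s` opened at the link from `σ⁻¹ s` to `s`: the merge
`s → σ s → ... → σ⁻¹ s`. -/
noncomputable def openWord (σ : Equiv.Perm S) (s : S) : List α := pathWord σ s (cyc σ s - 1)

/-- `B` contains exactly one string `b` of every cycle, and the link which enters `b` has the
smallest overlap of its cycle. -/
def IsOpening (σ : Equiv.Perm S) (B : Finset S) : Prop :=
  (∀ s : S, ∃ b ∈ B, σ.SameCycle b s) ∧
  (∀ b ∈ B, ∀ b' ∈ B, σ.SameCycle b b' → b = b') ∧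
  ∀ b ∈ B, ∀ s : S, σ.SameCycle b s → ov (σ⁻¹ b).1 b.1 ≤ ov s.1 (σ s).1

/-- Length of the cycle of `s`. -/
noncomputable def per (σ : Equiv.Perm S) (s : S) : ℕ :=
  ∑ i ∈ Finset.range (cyc σ s), dist σ ((σ ^ i) s)

/-- Start of the `i`-th string in the unrolled cycle. -/
def startPos (σ : Equiv.Perm S) (s : S) (i : ℕ) : ℕ :=
  ∑ j ∈ Finset.range i, dist σ ((σ ^ j) s)

/-- The unrolled cycle as an infinite word (`a` is a dummy letter, never used). -/
def text (σ : Equiv.Perm S) (s : S) (a : α) (n : ℕ) : α := (pathWord σ s (n + 1)).getD n a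

/-- `w` occurs in the infinite word `u` at `p`. -/
def OccAt (w : List α) (u : ℕ → α) (p : ℕ) : Prop := ∀ i (h : i < w.length), w[i] = u (p + i)

end Vale.Agent.P333.ST
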