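import Vale.Agent.P333.ST.Defs

/-! P333, ratio `3 - δ`, row A: basic facts on overlaps and distances. -/

namespace Vale.Agent.P333.ST

open Finset

variable {α : Type*} [DecidableEq α] {S : Finset (List α)}

theorem isOv_zero {s t : List α} (hs : s ≠ []) (ht : t ≠ []) : IsOv s t 0 := by
  refine ⟨List.length_pos_iff.2 hs, List.length_pos_iff.2 ht, ?_⟩
  simp

theorem ov_isOv {s t : List α} (hs : s ≠ []) (ht : t ≠ []) : IsOv s t (ov s t) :=
  Nat.findGreatest_spec (P := IsOv s t) (m := 0) (Nat.zero_le _) (isOv_zero hs ht)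

theorem le_ov {s t : List α} {k : ℕ} (h : IsOv s t k) : k ≤ ov s t :=
  Nat.le_findGreatest (h.1.le) h

theorem nonempty_of_mem (h0 : [] ∉ S) (s : S) : s.1 ≠ [] := fun h => h0 (h ▸ s.2)

theorem ov_lt_left (h0 : [] ∉ S) (s t : S) : ov s.1 t.1 < s.1.length :=
  (ov_isOv (nonempty_of_mem h0 s) (nonempty_of_mem h0 t)).1

theorem ov_lt_right (h0 : [] ∉ S) (s t : S) : ov s.1 t.1 < t.1.length :=
  (ov_isOv (nonempty_of_mem h0 s) (nonempty_of_mem h0 t)).2.1

theorem dist_pos (h0 : [] ∉ S) (σ : Equiv.Perm S) (s : S) : 0 < dist σ s := by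
  have := ov_lt_left h0 s (σ s)
  unfold dist
  omega

theorem dist_add_ov (h0 : [] ∉ S) (σ : Equiv.Perm S) (s : S) :
    dist σ s + ov s.1 (σ s).1 = s.1.length := by
  have := ov_lt_left h0 s (σ s)
  unfold dist
  omega

end Vale.Agent.P333.ST
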