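import Mathlib

/-!
P333, row E: inserting one lap for every representative. If every `s c` occurs in `T`, the `s c`
are pairwise not factors of each other and `s c` is also a suffix of `s c ++ v c`, then all the
words `s c ++ v c` occur in one word of length at most `|T| + ∑ |v c|`.
-/

namespace Vale.Agent.P333.ST

open List

variable {A : Type*}

/-- a window inside a window -/
theorem infix_of_pos {T s t : List A} {p q : ℕ} (hs : s <+: T.drop p) (ht : t <+: T.drop q)
    (hpq : p ≤ q) (hend : q + t.length ≤ p + s.length) : t <:+: s := by
  have e1 : T.drop q = (T.drop p).drop (q - p) := by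
    rw [List.drop_drop]; congr 1; omega
  have e2 : s = (T.drop p).take s.length := List.prefix_iff_eq_take.1 hs
  have e3 : t = (T.drop q).take t.length := List.prefix_iff_eq_take.1 ht
  have e4 : s.drop (q - p) = ((T.drop p).drop (q - p)).take (s.length - (q - p)) := by
    conv_lhs => rw [e2]
    rw [List.drop_take]
  have h1 : t <+: s.drop (q - p) := by
    rw [e4, ← e1, e3]
    exact List.take_prefix_take_left (by omega)
  exact h1.isInfix.trans (List.drop_suffix _ _).isInfix

/-- the overlap of two windows -/
theorem overlap_of_pos {T s t : List A} {p q : ℕ} (hs : s <+: T.drop p) (ht : t <+: T.drop q)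
    (hpq : p ≤ q) (hq : q ≤ p + s.length) (hend : p + s.length ≤ q + t.length) :
    t.take (p + s.length - q) <:+ s := by
  have e1 : T.drop q = (T.drop p).drop (q - p) := by
    rw [List.drop_drop]; congr 1; omega
  have e2 : s = (T.drop p).take s.length := List.prefix_iff_eq_take.1 hs
  have e3 : t = (T.drop q).take t.length := List.prefix_iff_eq_take.1 ht
  have e4 : s.drop (q - p) = ((T.drop p).drop (q - p)).take (s.length - (q - p)) := by
    conv_lhs => rw [e2]
    rw [List.drop_take]
  have h1 : t.take (p + s.length - q) = s.drop (q - p) := by
    rw [e4, ← e1]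
    conv_lhs => rw [e3]
    rw [List.take_take]
    congr 1
    omega
  rw [h1]
  exact List.drop_suffix _ _

/-- **row E**: insertion of the laps -/
theorem laps (T : List A) {I : Type*} [Fintype I] [DecidableEq I] (s v : I → List A)
    (hs : ∀ c, s c <:+: T) (hsuf : ∀ c, s c <:+ s c ++ v c)
    (hff : ∀ c c', c ≠ c' → ¬ s c <:+: s c') :
    ∃ T' : List A, T'.length ≤ T.length + ∑ c, (v c).length ∧ ∀ c, (s c ++ v c) <:+: T' := by
  classical
  have hpos : ∀ c, ∃ p, s c <+: T.drop p ∧ p + (s c).length ≤ T.length := by
    intro c
    obtain ⟨a, b, hab⟩ := hs c
    refine ⟨a.length, ?_, ?_⟩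
    · rw [← hab, List.append_assoc, List.drop_left]
      exact List.prefix_append _ _
    · rw [← hab]; simp
  choose p hp hpT using hpos
  have key : ∀ S : Finset I, ∃ P : List A, (∀ c ∈ S, (s c ++ v c) <:+: P) ∧
      ((S = ∅ ∧ P = []) ∨ ∃ c0 ∈ S, (∀ c ∈ S, p c ≤ p c0) ∧ s c0 <:+ P ∧
        P.length ≤ p c0 + (s c0).length + ∑ c ∈ S, (v c).length) := by
    intro S
    induction S using Finset.induction_on_max_value p with
    | empty => exact ⟨[], by simp, Or.inl ⟨rfl, rfl⟩⟩
    | insert a S haS hmax ih =>
      obtain ⟨P, hP, hc⟩ := ih
      rcases hc with ⟨hS, hPe⟩ | ⟨c0, hc0, hc0m, hsuf0, hlen⟩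
      · subst hS
        refine ⟨s a ++ v a, ?_, Or.inr ⟨a, by simp, by simp, hsuf a, ?_⟩⟩
        · intro c hc
          simp only [Finset.insert_empty, Finset.mem_singleton] at hc
          rw [hc]
        · simp only [List.length_append, Finset.insert_empty, Finset.sum_singleton]
          omega
      · have hne : c0 ≠ a := fun h => haS (h ▸ hc0)
        have hle : p c0 ≤ p a := hmax c0 hc0
        have hend : p c0 + (s c0).length ≤ p a + (s a).length := by
          by_contra hcon
          push Not at hcon
          exact hff a c0 hne.symm (infix_of_pos (hp c0) (hp a) hle (by omega))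
        rcases Nat.lt_or_ge (p a) (p c0 + (s c0).length) with hlt | hge
        · -- overlap
          have hov := overlap_of_pos (hp c0) (hp a) hle hlt.le hend
          set o := p c0 + (s c0).length - p a with ho
          obtain ⟨P0, hP0⟩ := hov.trans hsuf0
          have hval : P ++ ((s a).drop o ++ v a) = P0 ++ (s a ++ v a) := by
            rw [← hP0]
            simp only [List.append_assoc]
            rw [← List.append_assoc ((s a).take o), List.take_append_drop]
          refine ⟨P ++ ((s a).drop o ++ v a), ?_, Or.inr ⟨a, by simp, ?_, ?_, ?_⟩⟩
          · intro c hc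
            rw [Finset.mem_insert] at hc
            rcases hc with rfl | hc
            · rw [hval]; exact (List.suffix_append _ _).isInfix
            · exact (hP c hc).trans (List.prefix_append _ _).isInfix
          · intro c hc
            rw [Finset.mem_insert] at hc
            rcases hc with rfl | hc
            · exact le_refl _
            · exact hmax c hc
          · rw [hval]
            exact (hsuf a).trans (List.suffix_append _ _)
          · rw [Finset.sum_insert haS]
            simp only [List.length_append, List.length_drop]
            omega
        · refine ⟨P ++ (s a ++ v a), ?_, Or.inr ⟨a, by simp, ?_, ?_, ?_⟩⟩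
          · intro c hc
            rw [Finset.mem_insert] at hc
            rcases hc with rfl | hc
            · exact (List.suffix_append _ _).isInfix
            · exact (hP c hc).trans (List.prefix_append _ _).isInfix
          · intro c hc
            rw [Finset.mem_insert] at hc
            rcases hc with rfl | hc
            · exact le_refl _
            · exact hmax c hc
          · exact (hsuf a).trans (List.suffix_append _ _)
          · rw [Finset.sum_insert haS]
            simp only [List.length_append]
            omega
  obtain ⟨P, hP, hc⟩ := key Finset.univ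
  refine ⟨P, ?_, fun c => hP c (Finset.mem_univ c)⟩
  rcases hc with ⟨_, hPe⟩ | ⟨c0, _, _, _, hlen⟩
  · rw [hPe]; simp
  · have := hpT c0
    omega

end Vale.Agent.P333.ST
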