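import Vale.Agent.P333.ST.Defs

/-! Minimum cycle covers and openings exist. -/

namespace Vale.Agent.P333.ST

open Finset

universe u

variable {α : Type u} [DecidableEq α]

theorem exists_min (S : Finset (List α)) : ∃ σ : Equiv.Perm S, IsMin σ := by
  obtain ⟨σ, -, hσ⟩ := exists_min_image (univ : Finset (Equiv.Perm S)) (fun σ => cost σ)
    ⟨1, mem_univ _⟩
  exact ⟨σ, fun τ => hσ τ (mem_univ _)⟩

variable {S : Finset (List α)}

/-- in every cycle there is a string whose entering link has the smallest overlap -/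
theorem exists_low (σ : Equiv.Perm S) (s : S) :
    ∃ b : S, σ.SameCycle b s ∧ ∀ t : S, σ.SameCycle b t →
      ov (σ⁻¹ b).1 b.1 ≤ ov t.1 (σ t).1 := by
  classical
  obtain ⟨t, ht, hmin⟩ := exists_min_image (univ.filter (fun t : S => σ.SameCycle s t))
    (fun t => ov t.1 (σ t).1)
    ⟨s, mem_filter.2 ⟨mem_univ _, Equiv.Perm.SameCycle.refl σ s⟩⟩
  rw [mem_filter] at ht
  refine ⟨σ t, ?_, ?_⟩
  · exact (Equiv.Perm.sameCycle_apply_left.2 ht.2.symm)
  · intro t' ht'
    have h1 : σ.SameCycle s t' := by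
      have h2 : σ.SameCycle t t' := Equiv.Perm.sameCycle_apply_left.1 ht'
      exact ht.2.trans h2
    have h3 := hmin t' (by rw [mem_filter]; exact ⟨mem_univ _, h1⟩)
    have h4 : σ⁻¹ (σ t) = t := by simp
    rw [h4]
    exact h3

theorem exists_opening (σ : Equiv.Perm S) : ∃ B : Finset S, IsOpening σ B := by
  classical
  let r : Setoid S := Equiv.Perm.SameCycle.setoid σ
  choose b hb1 hb2 using exists_low σ
  let f : Quotient r → S := fun q => b q.out
  refine ⟨(univ : Finset S).image (fun s => f (Quotient.mk r s)), ?_, ?_, ?_⟩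
  · intro s
    refine ⟨f (Quotient.mk r s), mem_image.2 ⟨s, mem_univ _, rfl⟩, ?_⟩
    have h1 : σ.SameCycle (Quotient.mk r s).out s := Quotient.mk_out (s := r) s
    exact (hb1 _).trans h1
  · intro x hx y hy hxy
    rw [mem_image] at hx hy
    obtain ⟨s, -, rfl⟩ := hx
    obtain ⟨t, -, rfl⟩ := hy
    have h1 : σ.SameCycle (f (Quotient.mk r s)) s :=
      (hb1 _).trans (Quotient.mk_out (s := r) s)
    have h2 : σ.SameCycle (f (Quotient.mk r t)) t :=
      (hb1 _).trans (Quotient.mk_out (s := r) t)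
    have h3 : Quotient.mk r s = Quotient.mk r t :=
      Quotient.sound (h1.symm.trans (hxy.trans h2))
    rw [h3]
  · intro x hx t ht
    rw [mem_image] at hx
    obtain ⟨s, -, rfl⟩ := hx
    exact hb2 _ t ht

end Vale.Agent.P333.ST
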