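import Vale.Agent.P333.ST.Text
import Vale.Agent.P333.ST.SumBound
import Vale.Agent.P333.ST.Lap

/-! P333, ratio `3 - δ`, rows C2 and D: decomposition of the cost over the cycles, and
`OPT(W) ≤ OPT + CC`. -/

namespace Vale.Agent.P333.ST

open Finset
open Vale.Agent.P333.Cyc

set_option linter.unusedSectionVars false

variable {α : Type*} [DecidableEq α] {S : Finset (List α)}

theorem sum_cycle (σ : Equiv.Perm S) (s : S) :
    ∑ t ∈ univ.filter (fun t => σ.SameCycle s t), dist σ t = per σ s := by
  rw [orbit_sum]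
  unfold per cyc
  refine Finset.sum_congr rfl fun i _ => ?_
  rw [Equiv.Perm.iterate_eq_pow]

theorem per_congr (σ : Equiv.Perm S) {s t : S} (h : σ.SameCycle s t) : per σ s = per σ t := by
  rw [← sum_cycle, ← sum_cycle]
  refine Finset.sum_congr ?_ fun _ _ => rfl
  ext x
  simp only [Finset.mem_filter, Finset.mem_univ, true_and]
  exact ⟨fun hx => h.symm.trans hx, fun hx => h.trans hx⟩

theorem sum_per (σ : Equiv.Perm S) (B : Finset S) (hB : IsOpening σ B) :
    ∑ b ∈ B, per σ b = cost σ := by
  have h1 : ∀ b ∈ B, per σ b = ∑ t ∈ univ.filter (fun t => σ.SameCycle b t), dist σ t :=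
    fun b _ => (sum_cycle σ b).symm
  rw [Finset.sum_congr rfl h1, cost, ← Finset.sum_biUnion]
  · refine Finset.sum_congr ?_ fun _ _ => rfl
    ext t
    simp only [Finset.mem_biUnion, Finset.mem_filter, Finset.mem_univ, true_and, iff_true]
    exact hB.1 t
  · intro b hb b' hb' hne
    rw [Function.onFun, Finset.disjoint_left]
    intro t ht ht'
    simp only [Finset.mem_filter, Finset.mem_univ, true_and] at ht ht'
    exact hne (hB.2.1 b hb b' hb' (ht.trans ht'.symm))

/-- `OPT(W) ≤ OPT + CC`: in a superstring `T` of `S` one lap of every cycle can be inserted. -/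
theorem opt_le (hS : Free S) (h0 : [] ∉ S) (σ : Equiv.Perm S) (B : Finset S)
    (hB : IsOpening σ B) (T : List α) (hT : IsSuper S T) :
    ∃ H : List α, (∀ b ∈ B, openWord σ b <:+: H) ∧ H.length ≤ T.length + cost σ := by
  classical
  have hlap : ∀ b : {b // b ∈ B}, b.1.1 ++ (pathWord σ b.1 (cyc σ b.1)).drop b.1.1.length
      = pathWord σ b.1 (cyc σ b.1) := fun b =>
    (List.prefix_iff_eq_append.1 (lap_word h0 σ b.1).1)
  obtain ⟨H, hlen, hH⟩ := laps T (I := {b // b ∈ B}) (fun b => b.1.1)
    (fun b => (pathWord σ b.1 (cyc σ b.1)).drop b.1.1.length)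
    (fun b => hT _ b.1.2)
    (fun b => by
      rw [hlap b]
      exact (lap_word h0 σ b.1).2.1)
    (fun b b' hne h => hne (by
      have := hS _ b.1.2 _ b'.1.2 h
      exact Subtype.ext (Subtype.ext this)))
  refine ⟨H, ?_, ?_⟩
  · intro b hb
    have := hH ⟨b, hb⟩
    rw [hlap ⟨b, hb⟩] at this
    exact (lap_word h0 σ b).2.2.1.isInfix.trans this
  · have e : ∑ b : {b // b ∈ B}, ((pathWord σ b.1 (cyc σ b.1)).drop b.1.1.length).length
        = cost σ := by
      rw [← sum_per σ B hB, ← Finset.sum_coe_sort B]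
      refine Finset.sum_congr rfl fun b _ => ?_
      rw [List.length_drop, (lap_word h0 σ b.1).2.2.2]
      omega
    rw [e] at hlen
    exact hlen

end Vale.Agent.P333.ST
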