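import Vale.Agent.P333.ST.Cover
import Vale.Agent.P333.ST.Exist
import Vale.Agent.P333.ST.Insert

/-! P333, ratio `3 - δ`, rows F2 and G: the theorem. -/

namespace Vale.Agent.P333.ST

open Finset

set_option linter.unusedSectionVars false

variable {α : Type*} [DecidableEq α] {S : Finset (List α)}

/-- `∑ |w_K| ≤ 2 CC + |T|` -/
theorem openWord_sum_le (hS : Free S) (h0 : [] ∉ S) (σ : Equiv.Perm S) (hσ : IsMin σ)
    (B : Finset S) (hB : IsOpening σ B) (T : List α) (hT : IsSuper S T) :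
    ∑ b ∈ B, (openWord σ b).length ≤ 2 * cost σ + T.length := by
  refine le_trans (le_of_eq ?_) (opened_le hS h0 σ hσ B hB T hT)
  refine Finset.sum_congr rfl fun b _ => ?_
  rw [openWord_length h0, sum_cycle]

theorem isSuper_of_openWord (h0 : [] ∉ S) (σ : Equiv.Perm S) (B : Finset S)
    (hB : IsOpening σ B) (G : List α) (hG : ∀ b ∈ B, openWord σ b <:+: G) : IsSuper S G := by
  intro s hs
  obtain ⟨b, hb, hbs⟩ := hB.1 ⟨s, hs⟩
  exact (infix_openWord h0 σ b ⟨s, hs⟩ hbs).trans (hG b hb)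

/-- The theorem for factor-free families. -/
theorem main (hS : Free S) (h0 : [] ∉ S) (σ : Equiv.Perm S) (hσ : IsMin σ)
    (B : Finset S) (hB : IsOpening σ B) (δ : ℝ) (hδ0 : 0 ≤ δ) (hδ1 : δ ≤ 1) (G : List α)
    (hG : ∀ b ∈ B, openWord σ b <:+: G)
    (hδ : ∀ H : List α, (∀ b ∈ B, openWord σ b <:+: H) →
      δ * ((∑ b ∈ B, ((openWord σ b).length : ℝ)) - H.length) ≤
        (∑ b ∈ B, ((openWord σ b).length : ℝ)) - G.length) :
    IsSuper S G ∧ ∀ T : List α, IsSuper S T → (G.length : ℝ) ≤ (3 - δ) * T.length := by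
  refine ⟨isSuper_of_openWord h0 σ B hB G hG, ?_⟩
  intro T hT
  obtain ⟨H, hH, hlen⟩ := opt_le hS h0 σ B hB T hT
  have h1 := hδ H hH
  have h2 := openWord_sum_le hS h0 σ hσ B hB T hT
  have h3 := cost_le hS h0 σ hσ T hT
  have h2' : (∑ b ∈ B, ((openWord σ b).length : ℝ)) ≤ 2 * cost σ + T.length := by
    exact_mod_cast h2
  have h3' : (cost σ : ℝ) ≤ T.length := by exact_mod_cast h3
  have hlen' : (H.length : ℝ) ≤ T.length + cost σ := by exact_mod_cast hlen
  set W : ℝ := ∑ b ∈ B, ((openWord σ b).length : ℝ)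
  have hW : W ≤ 3 * T.length := by linarith
  have hH2 : (H.length : ℝ) ≤ 2 * T.length := by linarith
  nlinarith [mul_le_mul_of_nonneg_left hW (sub_nonneg.2 hδ1), mul_le_mul_of_nonneg_left hH2 hδ0]

end Vale.Agent.P333.ST
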