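import Vale.Agent.P333.ST.Defs
import Vale.Agent.P333.ST.SumBound

/-! Rows B and F: the cover lemma, `CC ≤ |T|` and the sum bound for the definitions of the final
statement. -/

namespace Vale.Agent.P333.ST

open Finset

universe u

variable {α : Type u} [DecidableEq α] {S : Finset (List α)}

theorem cov_ne (h0 : [] ∉ S) (s : S) : s.1 ≠ [] := by
  intro h
  exact h0 (h ▸ s.2)

theorem cov_free (hS : Free S) (s t : S) (h : s.1 <:+: t.1) : s = t :=
  Subtype.ext (hS s.1 s.2 t.1 t.2 h)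

theorem cov_isOv (h0 : [] ∉ S) (s t : S) : IsOv s.1 t.1 (ov s.1 t.1) := by
  have h1 : 0 < s.1.length := List.length_pos_iff.2 (cov_ne h0 s)
  have h2 : 0 < t.1.length := List.length_pos_iff.2 (cov_ne h0 t)
  have h3 : IsOv s.1 t.1 0 := ⟨h1, h2, by simp⟩
  exact Nat.findGreatest_spec (P := IsOv s.1 t.1) (Nat.zero_le _) h3

theorem cov_ovLen (h0 : [] ∉ S) (s t : S) : OvLen s.1 t.1 (ov s.1 t.1) := by
  obtain ⟨h1, h2, h3⟩ := cov_isOv h0 s t
  exact ⟨h1, h2, h3.symm⟩

theorem cov_le_ov {s t : List α} {k : ℕ} (h : OvLen s t k) : k ≤ ov s t :=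
  Nat.le_findGreatest h.1.le ⟨h.1, h.2.1, h.2.2.symm⟩

theorem cov_min (h0 : [] ∉ S) (σ : Equiv.Perm S) (hσ : IsMin σ) (τ : Equiv.Perm S) (o' : S → ℕ)
    (h : ∀ i : S, OvLen i.1 (τ i).1 (o' i)) :
    ∑ i : S, (i.1.length - ov i.1 (σ i).1) ≤ ∑ i : S, (i.1.length - o' i) := by
  refine (hσ τ).trans ?_
  refine sum_le_sum fun i _ => ?_
  unfold dist
  have := cov_le_ov (h i)
  omega

/-- If all strings of a `σ`-invariant set `R` occur in a `q`-periodic infinite word, then the part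
of a minimum cycle cover on `R` costs at most `q` (sort the strings by phase). -/
theorem cover (hS : Free S) (h0 : [] ∉ S) (σ : Equiv.Perm S) (hσ : IsMin σ) (R : Finset S)
    (hR : ∀ s ∈ R, σ s ∈ R) (u : ℕ → α) (q : ℕ) (hq : 0 < q) (hu : ∀ n, u (n + q) = u n)
    (hocc : ∀ s ∈ R, ∃ p, OccAt s.1 u p) : ∑ s ∈ R, dist σ s ≤ q := by
  have hinv : ∀ i, σ i ∈ R ↔ i ∈ R := by
    have h1 : R.map σ.toEmbedding = R := by
      refine eq_of_subset_of_card_le ?_ (by rw [card_map])
      intro x hx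
      rw [mem_map] at hx
      obtain ⟨y, hy, rfl⟩ := hx
      exact hR y hy
    intro i
    constructor
    · intro h
      rw [← h1, mem_map] at h
      obtain ⟨y, hy, hyi⟩ := h
      have : y = i := σ.injective hyi
      rwa [← this]
    · exact hR i
  exact min_cover_le (fun i : S => i.1) (fun i j h => cov_free hS i j h) (cov_ne h0) σ
    (fun i => ov i.1 (σ i).1) (fun i => cov_ovLen h0 i (σ i)) (cov_min h0 σ hσ) R hinv q hq u hu
    hocc

/-- `CC ≤ |T|`. -/
theorem cost_le (hS : Free S) (h0 : [] ∉ S) (σ : Equiv.Perm S) (hσ : IsMin σ) (T : List α)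
    (hT : IsSuper S T) : cost σ ≤ T.length := by
  rcases isEmpty_or_nonempty S with h | h
  · unfold cost
    simp
  · obtain ⟨τ, o, h1, h2⟩ := cover_le_superstring (fun i : S => i.1)
      (fun i j h => cov_free hS i j h) (cov_ne h0) T (fun i => hT i.1 i.2)
    exact (cov_min h0 σ hσ τ o h1).trans h2

theorem sc_inv_left (σ : Equiv.Perm S) (x y : S) :
    σ.SameCycle (σ⁻¹ x) y ↔ σ.SameCycle x y := Equiv.Perm.sameCycle_symm_apply_left

theorem sc_inv_right (σ : Equiv.Perm S) (x y : S) :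
    σ.SameCycle x (σ⁻¹ y) ↔ σ.SameCycle x y := Equiv.Perm.sameCycle_symm_apply_right

/-- the main inequality, without reference to the opened words -/
theorem opened_le (hS : Free S) (h0 : [] ∉ S) (σ : Equiv.Perm S) (hσ : IsMin σ)
    (B : Finset S) (hB : IsOpening σ B) (T : List α) (hT : IsSuper S T) :
    ∑ b ∈ B, ((∑ t ∈ univ.filter (fun t => σ.SameCycle b t), dist σ t) +
      ov (σ⁻¹ b).1 b.1) ≤ 2 * cost σ + T.length := by
  have h1 := sum_opened_le (fun i : S => i.1) (fun i j h => cov_free hS i j h) (cov_ne h0) σ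
    (fun i => ov i.1 (σ i).1) (fun i => cov_ovLen h0 i (σ i)) (cov_min h0 σ hσ) T
    (fun i => hT i.1 i.2) (B.map (σ⁻¹ : Equiv.Perm S).toEmbedding) ?_ ?_
  · rw [sum_map] at h1
    refine le_trans (le_of_eq ?_) h1
    refine sum_congr rfl fun b hb => ?_
    have e1 : univ.filter (fun t => σ.SameCycle b t) =
        univ.filter (fun t => σ.SameCycle ((σ⁻¹ : Equiv.Perm S).toEmbedding b) t) := by
      ext t
      simp only [mem_filter, mem_univ, true_and, Equiv.coe_toEmbedding]
      rw [sc_inv_left]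
    have e2 : σ ((σ⁻¹ : Equiv.Perm S).toEmbedding b) = b := by simp
    rw [e2, ← e1]
    rfl
  · intro r hr r' hr' h
    rw [mem_map] at hr hr'
    obtain ⟨b, hb, rfl⟩ := hr
    obtain ⟨b', hb', rfl⟩ := hr'
    simp only [Equiv.coe_toEmbedding] at h ⊢
    rw [sc_inv_left, sc_inv_right] at h
    rw [hB.2.1 b hb b' hb' h]
  · intro r hr i hi
    rw [mem_map] at hr
    obtain ⟨b, hb, rfl⟩ := hr
    simp only [Equiv.coe_toEmbedding] at hi ⊢
    rw [sc_inv_left] at hi
    have := hB.2.2 b hb i hi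
    simpa using this

end Vale.Agent.P333.ST
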