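import Mathlib

/-! Cyclic order of points on a circle of length `q`. -/

namespace Vale.Agent.P333.ST

open Finset

theorem tele_sum (n : ℕ) (f : Fin (n + 1) → ℕ) (hf : Monotone f) :
    ∑ k : Fin n, (f k.succ - f k.castSucc) = f (Fin.last n) - f 0 := by
  induction n with
  | zero => simp
  | succ n ih =>
    rw [Fin.sum_univ_castSucc]
    have h1 := ih (fun k => f k.castSucc) (fun a b hab => hf (by simpa using hab))
    have h2 : ∀ k : Fin n, (f k.castSucc.succ - f k.castSucc.castSucc) =
        ((fun k : Fin (n+1) => f k.castSucc) k.succ - (fun k : Fin (n+1) => f k.castSucc) k.castSucc) := by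
      intro k
      simp only [Fin.succ_castSucc]
    rw [Finset.sum_congr rfl (fun k _ => h2 k), h1]
    have a1 : f 0 ≤ f (Fin.last n).castSucc := hf (Fin.zero_le _)
    have a2 : f (Fin.last n).castSucc ≤ f (Fin.last n).succ := hf (by
      rw [Fin.le_def]; simp)
    have a3 : (Fin.last n).succ = Fin.last (n + 1) := rfl
    rw [← a3]
    have a4 : (fun k : Fin (n+1) => f k.castSucc) 0 = f 0 := by simp
    simp only [Fin.castSucc_zero] at *
    omega

/-- Points `p i < q` on a circle of length `q`, pairwise distinct: the map to the next point. -/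
theorem exists_cyclic_perm {κ : Type*} [Fintype κ] [Nonempty κ] (q : ℕ)
    (p : κ → ℕ) (hp : ∀ i, p i < q) (hinj : Function.Injective p) :
    ∃ (τ : Equiv.Perm κ) (g : κ → ℕ), (∀ i, 0 < g i) ∧
      (∀ i, p i + g i = p (τ i) ∨ p i + g i = p (τ i) + q) ∧ ∑ i, g i = q := by
  classical
  let _ : LinearOrder κ := LinearOrder.lift' p hinj
  obtain ⟨n, hn⟩ : ∃ n, Fintype.card κ = n + 1 :=
    ⟨Fintype.card κ - 1, by have := Fintype.card_pos (α := κ); omega⟩
  let e : Fin (n + 1) ≃o κ := monoEquivOfFin κ hn
  have hlt : ∀ a b : Fin (n + 1), a < b → p (e a) < p (e b) := by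
    intro a b hab
    have : e a < e b := e.lt_iff_lt.2 hab
    exact this
  have hmono : Monotone (fun k => p (e k)) := by
    intro a b hab
    rcases hab.lt_or_eq with h | h
    · exact (hlt a b h).le
    · rw [h]
  let gf : Fin (n + 1) → ℕ := fun k =>
    if k = Fin.last n then q + p (e 0) - p (e (Fin.last n)) else p (e (finRotate (n + 1) k)) - p (e k)
  refine ⟨e.toEquiv.symm.trans ((finRotate (n + 1)).trans e.toEquiv), fun i => gf (e.symm i), ?_, ?_, ?_⟩
  · intro i
    simp only [gf]
    split_ifs with h
    · have := hp (e (Fin.last n)); omega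
    · have hk : e.symm i ≠ Fin.last n := h
      have h1 : e.symm i < finRotate (n + 1) (e.symm i) := by
        obtain ⟨k, hk'⟩ : ∃ k : Fin n, e.symm i = k.castSucc :=
          ⟨(e.symm i).castPred hk, by simp⟩
        rw [hk', Fin.lt_def]
        have : finRotate (n + 1) k.castSucc = k.succ := by
          have := finRotate_of_lt (n := n) (k := k) k.2
          exact this
        rw [this]
        simp
      have := hlt _ _ h1
      omega
  · intro i
    have hi : p i = p (e (e.symm i)) := by simp
    simp only [gf]
    split_ifs with h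
    · right
      have h2 : (e.toEquiv.symm.trans ((finRotate (n + 1)).trans e.toEquiv)) i = e 0 := by
        simp only [Equiv.trans_apply]
        have : e.toEquiv.symm i = Fin.last n := h
        rw [this, finRotate_last]
        rfl
      rw [h2, hi, h]
      have := hp (e (Fin.last n)); omega
    · left
      have h2 : (e.toEquiv.symm.trans ((finRotate (n + 1)).trans e.toEquiv)) i =
          e (finRotate (n + 1) (e.symm i)) := rfl
      rw [h2]
      have hk : e.symm i ≠ Fin.last n := h
      have h1 : e.symm i < finRotate (n + 1) (e.symm i) := by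
        obtain ⟨k, hk'⟩ : ∃ k : Fin n, e.symm i = k.castSucc :=
          ⟨(e.symm i).castPred hk, by simp⟩
        rw [hk', Fin.lt_def]
        have : finRotate (n + 1) k.castSucc = k.succ := by
          have := finRotate_of_lt (n := n) (k := k) k.2
          exact this
        rw [this]
        simp
      have := hlt _ _ h1
      omega
  · have h1 : ∑ i, gf (e.symm i) = ∑ k, gf k :=
      Equiv.sum_comp e.symm.toEquiv gf
    rw [h1, Fin.sum_univ_castSucc]
    have h2 : ∀ k : Fin n, gf k.castSucc = (fun k => p (e k)) k.succ - (fun k => p (e k)) k.castSucc := by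
      intro k
      have hk : k.castSucc ≠ Fin.last n := (Fin.castSucc_lt_last k).ne
      have : finRotate (n + 1) k.castSucc = k.succ := finRotate_of_lt (n := n) (k := k) k.2
      simp only [gf, if_neg hk, this]
    rw [Finset.sum_congr rfl (fun k _ => h2 k), tele_sum n _ hmono]
    simp only [gf, if_true]
    have a1 := hmono (Fin.zero_le (Fin.last n))
    have a2 := hp (e (Fin.last n))
    simp only at a1
    omega

end Vale.Agent.P333.ST
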