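import Vale.Agent.P333.Defs
import Vale.Agent.P333.ST.Lap

/-! The greedy algorithm achieves half of the maximal compression. -/

namespace Vale.Agent.P333.ST

open List

universe u

variable {α : Type u}

theorem drop_split {H s : List α} {p : ℕ} (h : s <+: H.drop p) :
    H.drop p = s ++ H.drop (p + s.length) := by
  obtain ⟨r, hr⟩ := h
  have : H.drop (p + s.length) = (H.drop p).drop s.length := by rw [List.drop_drop]
  rw [this, ← hr, List.drop_left]

theorem take_split {H s : List α} {p : ℕ} (h : s <+: H.drop p) :
    H.take (p + s.length) = H.take p ++ s := by
  rw [List.take_add, ← List.prefix_iff_eq_take.1 h]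

theorem infix_win {H r : List α} {p x y : ℕ} (h : r <+: H.drop p) (hx : x ≤ p)
    (hy : p + r.length ≤ y) : r <:+: (H.take y).drop x := by
  have h1 : (H.take y).drop p <:+ (H.take y).drop x := by
    have : (H.take y).drop p = ((H.take y).drop x).drop (p - x) := by
      rw [List.drop_drop]; congr 1; omega
    rw [this]
    exact List.drop_suffix _ _
  have h2 : r <+: (H.take y).drop p := by
    rw [List.drop_take, List.prefix_iff_eq_take.1 h]
    refine List.take_prefix_take_left ?_
    omega
  exact h2.isInfix.trans h1.isInfix

theorem infix_take {H r : List α} {p y : ℕ} (h : r <+: H.drop p)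
    (hy : p + r.length ≤ y) : r <:+: H.take y := by
  have := infix_win h (Nat.zero_le _) hy
  simpa using this

theorem infix_drop {H r : List α} {p x : ℕ} (h : r <+: H.drop p) (hx : x ≤ p) :
    r <:+: H.drop x := by
  have : H.drop p = (H.drop x).drop (p - x) := by
    rw [List.drop_drop]; congr 1; omega
  rw [this] at h
  exact h.isInfix.trans (List.drop_suffix _ _).isInfix

theorem length_le_of_prefix_drop {H r : List α} {p : ℕ} (h : r <+: H.drop p)
    (h0 : 0 < r.length) : p + r.length ≤ H.length := by
  have := h.length_le
  rw [List.length_drop] at this
  omega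

variable [DecidableEq α]

/-- One greedy step: a superstring of the old family gives a superstring of the new family which
is longer by at most the overlap of the step. -/
theorem step_superstring {F F' : Finset (List α)} (hfree : ∀ s ∈ F, ∀ t ∈ F, s <:+: t → s = t)
    {s t o : List α} (hs : s ∈ F) (ht : t ∈ F) (hst : s ≠ t) (hos : o <:+ s) (hot : o <+: t)
    (hmax : ∀ s' ∈ F, ∀ t' ∈ F, s' ≠ t' → ∀ o' : List α, o' <:+ s' → o' <+: t' →
      o'.length ≤ o.length)
    (hF' : F' = insert (s ++ t.drop o.length) ((F.erase s).erase t))
    {H : List α} (hH : ∀ r ∈ F, r <:+: H) :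
    ∃ H' : List α, H'.length ≤ H.length + o.length ∧ ∀ r ∈ F', r <:+: H' := by
  have hpos : ∀ r, ∃ p, r ∈ F → r <+: H.drop p ∧ p + r.length ≤ H.length := by
    intro r
    by_cases hr : r ∈ F
    · obtain ⟨a, b, hab⟩ := hH r hr
      refine ⟨a.length, fun _ => ⟨?_, ?_⟩⟩
      · rw [← hab, List.append_assoc, List.drop_left]
        exact List.prefix_append _ _
      · rw [← hab]; simp only [List.length_append]; omega
    · exact ⟨0, fun h => absurd h hr⟩
  choose p hp using hpos
  have hols : o.length ≤ s.length := hos.length_le
  have holt : o.length ≤ t.length := hot.length_le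
  have hmono : ∀ r ∈ F, ∀ r' ∈ F, r ≠ r' → p r ≤ p r' →
      p r < p r' ∧ p r + r.length < p r' + r'.length := by
    intro r hr r' hr' hne h
    constructor
    · rcases h.lt_or_eq with h1 | h1
      · exact h1
      · exfalso
        rcases le_total r.length r'.length with h2 | h2
        · exact hne (hfree r hr r' hr' (infix_of_pos (hp r' hr').1 (hp r hr).1 h1.ge (by omega)))
        · exact hne (hfree r' hr' r hr (infix_of_pos (hp r hr).1 (hp r' hr').1 h1.le
            (by omega))).symm
    · by_contra hcon
      exact hne (hfree r' hr' r hr (infix_of_pos (hp r hr).1 (hp r' hr').1 h (by omega))).symm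
  have hov : ∀ r ∈ F, ∀ r' ∈ F, r ≠ r' → p r ≤ p r' → p r + r.length ≤ p r' + o.length := by
    intro r hr r' hr' hne h
    by_cases h1 : p r' ≤ p r + r.length
    · have h2 := (hmono r hr r' hr' hne h).2
      have h3 := overlap_of_pos (hp r hr).1 (hp r' hr').1 h h1 h2.le
      have h4 := hmax r hr r' hr' hne _ h3 (List.take_prefix _ _)
      rw [List.length_take] at h4
      omega
    · omega
  have hps := (hp s hs).1
  have hpt := (hp t ht).1
  have hls := (hp s hs).2
  have hlt := (hp t ht).2
  have ho1 : t = o ++ t.drop o.length := by
    obtain ⟨x, hx⟩ := hot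
    rw [← hx, List.drop_left]
  have ho2 : ∃ x, s = x ++ o := by
    obtain ⟨x, hx⟩ := hos
    exact ⟨x, hx.symm⟩
  obtain ⟨x, hx⟩ := ho2
  rcases lt_or_ge (p s) (p t) with hcase | hcase
  · -- s before t
    have hend := (hmono s hs t ht hst hcase.le).2
    have hoverlap := hov s hs t ht hst hcase.le
    let W1 := H.take (p s + s.length) ++ t.drop o.length ++ H.drop (p t + t.length)
    let W2 := (H.take (p t + o.length)).drop (p s + s.length - o.length)
    have hm : (s ++ t.drop o.length) <:+ H.take (p s + s.length) ++ t.drop o.length := by
      rw [take_split hps, List.append_assoc]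
      exact List.suffix_append _ _
    have htW : (t ++ H.drop (p t + t.length)) <:+ W1 := by
      have h1 : t <:+ s ++ t.drop o.length := by
        rw [hx, List.append_assoc, ← ho1]
        exact List.suffix_append _ _
      obtain ⟨y, hy⟩ := h1.trans hm
      refine ⟨y, ?_⟩
      simp only [W1]
      rw [← hy, List.append_assoc]
    refine ⟨W1 ++ W2, ?_, ?_⟩
    · simp only [W1, W2, List.length_append, List.length_take, List.length_drop]
      omega
    · intro r hr
      rw [hF', Finset.mem_insert] at hr
      rcases hr with hr | hr
      · rw [hr]
        exact hm.isInfix.trans ((List.prefix_append _ _).isInfix.trans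
          (List.prefix_append _ _).isInfix)
      · rw [Finset.mem_erase, Finset.mem_erase] at hr
        obtain ⟨hrt, hrs, hrF⟩ := hr
        have hpr := (hp r hrF).1
        rcases le_total (p r) (p s) with h1 | h1
        · have h2 := (hmono r hrF s hs hrs h1).2
          exact (infix_take hpr h2.le).trans ((List.prefix_append _ _).isInfix.trans
            ((List.prefix_append _ _).isInfix.trans (List.prefix_append _ _).isInfix))
        · rcases le_total (p r) (p t) with h2 | h2
          · have h3 := hov s hs r hrF (Ne.symm hrs) h1
            have h4 := hov r hrF t ht hrt h2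
            exact (infix_win hpr (by omega) h4).trans (List.suffix_append _ _).isInfix
          · have h3 : r <:+: t ++ H.drop (p t + t.length) := by
              rw [← drop_split hpt]
              exact infix_drop hpr h2
            exact h3.trans (htW.isInfix.trans (List.prefix_append _ _).isInfix)
  · -- t before s
    have hend := (hmono t ht s hs (Ne.symm hst) hcase).2
    have hoverlap := hov t ht s hs (Ne.symm hst) hcase
    let W1 := H.take (p t) ++ o ++ H.drop (p s + s.length)
    let W2 := (H.take (p s + s.length)).drop (p t + t.length - o.length) ++ t.drop o.length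
    have hleft : H.take (p t + o.length) = H.take (p t) ++ o := by
      have h1 : o <+: H.drop (p t) := hot.trans hpt
      exact take_split h1
    have hright : H.drop (p s + s.length - o.length) = o ++ H.drop (p s + s.length) := by
      have h1 : s.length = x.length + o.length := by rw [hx]; simp
      have h2 : o <+: H.drop (p s + x.length) := by
        have h3 : H.drop (p s + x.length) = (H.drop (p s)).drop x.length := by
          rw [List.drop_drop]
        rw [h3]
        obtain ⟨y, hy⟩ := hps
        rw [← hy, hx, List.append_assoc, List.drop_left]
        exact List.prefix_append _ _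
      have h3 := drop_split h2
      have e1 : p s + s.length - o.length = p s + x.length := by omega
      have e2 : p s + x.length + o.length = p s + s.length := by omega
      rw [e1, h3, e2]
    have hsW : s <:+ (H.take (p s + s.length)).drop (p t + t.length - o.length) := by
      have h1 : (H.take (p s + s.length)).drop (p s) = s := by
        rw [take_split hps]
        have : (H.take (p s)).length = p s := by rw [List.length_take]; omega
        rw [← this]
        conv_lhs => rw [this]
        simp [this]
      have h2 : (H.take (p s + s.length)).drop (p s) =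
          ((H.take (p s + s.length)).drop (p t + t.length - o.length)).drop
            (p s - (p t + t.length - o.length)) := by
        rw [List.drop_drop]; congr 1; omega
      rw [h1] at h2
      conv_lhs => rw [h2]
      exact List.drop_suffix _ _
    refine ⟨W1 ++ W2, ?_, ?_⟩
    · simp only [W1, W2, List.length_append, List.length_take, List.length_drop]
      omega
    · intro r hr
      rw [hF', Finset.mem_insert] at hr
      rcases hr with hr | hr
      · rw [hr]
        have h1 : (s ++ t.drop o.length) <:+ W2 := by
          obtain ⟨y, hy⟩ := hsW
          refine ⟨y, ?_⟩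
          simp only [W2]
          rw [← hy, List.append_assoc]
        exact h1.isInfix.trans (List.suffix_append _ _).isInfix
      · rw [Finset.mem_erase, Finset.mem_erase] at hr
        obtain ⟨hrt, hrs, hrF⟩ := hr
        have hpr := (hp r hrF).1
        rcases le_total (p r) (p t) with h1 | h1
        · have h2 := hov r hrF t ht hrt h1
          have h3 : r <:+: H.take (p t) ++ o := by
            rw [← hleft]
            exact infix_take hpr h2
          exact h3.trans ((List.prefix_append _ _).isInfix.trans (List.prefix_append _ _).isInfix)
        · rcases le_total (p r) (p s) with h2 | h2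
          · have h3 := hov t ht r hrF (Ne.symm hrt) h1
            have h4 := (hmono r hrF s hs hrs h2).2
            exact (infix_win hpr (by omega) h4.le).trans
              ((List.prefix_append _ _).isInfix.trans (List.suffix_append _ _).isInfix)
          · have h3 := hov s hs r hrF (Ne.symm hrs) h2
            have h4 : r <:+: o ++ H.drop (p s + s.length) := by
              rw [← hright]
              exact infix_drop hpr (by omega)
            refine h4.trans (List.IsInfix.trans ?_ (List.prefix_append _ _).isInfix)
            refine List.IsSuffix.isInfix ⟨H.take (p t), ?_⟩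
            simp only [W1, List.append_assoc]

/-- A greedy step preserves factor-freeness. -/
theorem step_free {F F' : Finset (List α)} (hfree : ∀ s ∈ F, ∀ t ∈ F, s <:+: t → s = t)
    {s t o : List α} (hs : s ∈ F) (ht : t ∈ F) (hos : o <:+ s) (hot : o <+: t)
    (hmax : ∀ s' ∈ F, ∀ t' ∈ F, s' ≠ t' → ∀ o' : List α, o' <:+ s' → o' <+: t' →
      o'.length ≤ o.length)
    (hF' : F' = insert (s ++ t.drop o.length) ((F.erase s).erase t)) :
    ∀ r ∈ F', ∀ r' ∈ F', r <:+: r' → r = r' := by
  have hols : o.length ≤ s.length := hos.length_le
  have ho1 : t = o ++ t.drop o.length := by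
    obtain ⟨x, hx⟩ := hot
    rw [← hx, List.drop_left]
  obtain ⟨x, hx⟩ := hos
  intro r hr r' hr' h
  rw [hF', Finset.mem_insert, Finset.mem_erase, Finset.mem_erase] at hr hr'
  rcases hr with hr | ⟨hrt, hrs, hrF⟩
  · rcases hr' with hr' | ⟨hrt', hrs', hrF'⟩
    · rw [hr, hr']
    · exfalso
      rw [hr] at h
      exact hrs' (hfree s hs r' hrF' ((List.prefix_append _ _).isInfix.trans h)).symm
  · rcases hr' with hr' | ⟨hrt', hrs', hrF'⟩
    · exfalso
      rw [hr'] at h
      obtain ⟨a, b, hab⟩ := h
      have hpr : r <+: (s ++ t.drop o.length).drop a.length := by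
        rw [← hab, List.append_assoc, List.drop_left]
        exact List.prefix_append _ _
      have hp0 : s <+: (s ++ t.drop o.length).drop 0 := by
        simp
      rcases le_or_gt (a.length + r.length) s.length with h1 | h1
      · exact hrs (hfree r hrF s hs (infix_of_pos hp0 hpr (Nat.zero_le _) (by omega)))
      · rcases le_or_gt (s.length - o.length) a.length with h2 | h2
        · have h3 : (s ++ t.drop o.length).drop (s.length - o.length) = t := by
            have e : s.length - o.length = x.length := by
              rw [← hx, List.length_append]; omega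
            rw [e, ← hx, List.append_assoc, List.drop_left, ← ho1]
          have h4 := infix_drop hpr h2
          rw [h3] at h4
          exact hrt (hfree r hrF t ht h4)
        · have h3 := overlap_of_pos hp0 hpr (Nat.zero_le _) (by omega) (by omega)
          have h4 := hmax s hs r hrF (Ne.symm hrs) _ h3 (List.take_prefix _ _)
          rw [List.length_take] at h4
          omega
    · exact hfree r hrF r' hrF' h

theorem greedy_half_aux {F : Finset (List α)} {G : List α}
    (hG : Relation.ReflTransGen GreedyStep F {G}) :
    (∀ s ∈ F, ∀ t ∈ F, s <:+: t → s = t) → ∀ H : List α, (∀ r ∈ F, r <:+: H) →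
      2 * G.length ≤ (∑ s ∈ F, s.length) + H.length := by
  induction hG using Relation.ReflTransGen.head_induction_on with
  | refl =>
    intro _ H hH
    have := (hH G (Finset.mem_singleton_self G)).length_le
    rw [Finset.sum_singleton]
    omega
  | @head F F' hstep hrest ih =>
    intro hfree H hH
    obtain ⟨s, hs, t, ht, hst, o, hos, hot, hmax, hF'⟩ := hstep
    obtain ⟨H', h1, h2⟩ := step_superstring hfree hs ht hst hos hot hmax hF' hH
    have h3 := ih (step_free hfree hs ht hos hot hmax hF') H' h2
    have h4 : ∑ r ∈ F', r.length + o.length ≤ ∑ r ∈ F, r.length := by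
      have h5 : ∑ r ∈ F', r.length ≤ (s ++ t.drop o.length).length +
          ∑ r ∈ (F.erase s).erase t, r.length := by
        rw [hF']
        by_cases hm : (s ++ t.drop o.length) ∈ (F.erase s).erase t
        · rw [Finset.insert_eq_of_mem hm]; omega
        · rw [Finset.sum_insert hm]
      have h6 : t ∈ F.erase s := Finset.mem_erase.2 ⟨Ne.symm hst, ht⟩
      have h7 := Finset.add_sum_erase F (fun r => r.length) hs
      have h8 := Finset.add_sum_erase (F.erase s) (fun r => r.length) h6
      have h9 := hot.length_le
      rw [List.length_append, List.length_drop] at h5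
      omega
    omega

/-- **Tarhio and Ukkonen.** Every greedy superstring has at least half of the maximal
compression. -/
theorem greedy_half (W : Finset (List α)) (G : List α) (hG : IsGreedyOutput W G) (H : List α)
    (hH : ∀ s ∈ W, s <:+: H) :
    2 * G.length ≤ (∑ s ∈ reduceFamily W, s.length) + H.length := by
  refine greedy_half_aux hG ?_ H ?_
  · intro s hs t ht h
    rw [reduceFamily, Finset.mem_filter] at hs ht
    exact hs.2 t ht.1 h
  · intro r hr
    rw [reduceFamily, Finset.mem_filter] at hr
    exact hH r hr.1

end Vale.Agent.P333.ST
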