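import Vale.Agent.P333.ST.Main

/-! P333, ratio `3 - δ`: reduction to the factor-free part, and the statement for families. -/

namespace Vale.Agent.P333.ST

open Finset
open Vale.Agent.P333.Cyc

set_option linter.unusedSectionVars false

variable {α : Type*} [DecidableEq α]

theorem prefix_openWord {S : Finset (List α)} (h0 : [] ∉ S) (σ : Equiv.Perm S) (s : S) :
    s.1 <+: openWord σ s := by
  obtain ⟨u, hu⟩ := exists_tx h0 σ s
  have h1 := hu.prefix_opened (cyc σ s - 1)
  rw [pos_eq, pos_eq, per_eq, Nat.sub_add_cancel (cyc_pos σ s), per_eq] at h1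
  simp only [pow_cyc, pow_pred_cyc] at h1
  rw [openWord_eq h0 σ s hu]
  have h2 := win_period u (tx_per σ s hu) 0 (per σ s + ov (σ⁻¹ s).1 s.1)
  rw [zero_add] at h2
  rwa [h2] at h1

theorem openWord_inj {S : Finset (List α)} (hS : Free S) (h0 : [] ∉ S) (σ : Equiv.Perm S)
    {b b' : S} (h : openWord σ b = openWord σ b') : b = b' := by
  have h1 := prefix_openWord h0 σ b
  have h2 := prefix_openWord h0 σ b'
  rw [← h] at h2
  rcases le_total b.1.length b'.1.length with h3 | h3
  · exact Subtype.ext (hS _ b.2 _ b'.2 (List.prefix_of_prefix_length_le h1 h2 h3).isInfix)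
  · exact (Subtype.ext (hS _ b'.2 _ b.2 (List.prefix_of_prefix_length_le h2 h1 h3).isInfix)).symm

/-- a superstring of the strings that are nonempty and not a factor of another one is a
superstring of all -/
theorem isSuper_filter (S : Finset (List α)) (T : List α)
    (h : ∀ s ∈ S, s ≠ [] → (∀ t ∈ S, s <:+: t → s = t) → s <:+: T) : IsSuper S T := by
  have key : ∀ n, ∀ s ∈ S, (S.sup List.length) - s.length ≤ n → s <:+: T := by
    intro n
    induction n with
    | zero =>
      intro s hs hn
      by_cases h0 : s = []
      · subst h0
        exact List.nil_infix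
      refine h s hs h0 fun t ht hst => ?_
      have h1 : t.length ≤ S.sup List.length := Finset.le_sup (f := List.length) ht
      have h2 := hst.length_le
      exact hst.eq_of_length (by omega)
    | succ n ih =>
      intro s hs hn
      by_cases h0 : s = []
      · subst h0
        exact List.nil_infix
      by_cases h1 : ∀ t ∈ S, s <:+: t → s = t
      · exact h s hs h0 h1
      · push Not at h1
        obtain ⟨t, ht, hst, hne⟩ := h1
        have h2 := hst.length_le
        have h3 : s.length ≠ t.length := fun e => hne (hst.eq_of_length e)
        refine hst.trans (ih t ht ?_)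
        omega
  exact fun s hs => key _ s hs le_rfl

end Vale.Agent.P333.ST
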