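import Vale.Agent.P333.ST.Defs

/-! P333 ratio `3 - δ`: skeleton with all rows. Each row goes to its own file; statements verbatim. -/

namespace Vale.Agent.P333.ST

open Finset

variable {α : Type*} [DecidableEq α] {S : Finset (List α)}

/-! ROW A (file Basics.lean) -/

theorem ov_isOv {s t : List α} (hs : s ≠ []) (ht : t ≠ []) : IsOv s t (ov s t) := by
  sorry

theorem le_ov {s t : List α} {k : ℕ} (h : IsOv s t k) : k ≤ ov s t := by
  sorry

theorem nonempty_of_mem (h0 : [] ∉ S) (s : S) : s.1 ≠ [] := by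
  sorry

theorem dist_pos (h0 : [] ∉ S) (σ : Equiv.Perm S) (s : S) : 0 < dist σ s := by
  sorry

theorem dist_add_ov (h0 : [] ∉ S) (σ : Equiv.Perm S) (s : S) :
    dist σ s + ov s.1 (σ s).1 = s.1.length := by
  sorry

/-! ROW B (file Cover.lean) -/

/-- If all strings of a `σ`-invariant set `R` occur in a `q`-periodic infinite word, then the part
of a minimum cycle cover on `R` costs at most `q` (sort the strings by phase). -/
theorem cover (hS : Free S) (h0 : [] ∉ S) (σ : Equiv.Perm S) (hσ : IsMin σ) (R : Finset S)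
    (hR : ∀ s ∈ R, σ s ∈ R) (u : ℕ → α) (q : ℕ) (hq : 0 < q) (hu : ∀ n, u (n + q) = u n)
    (hocc : ∀ s ∈ R, ∃ p, OccAt s.1 u p) : ∑ s ∈ R, dist σ s ≤ q := by
  sorry

/-- `CC ≤ |T|` (apply `cover` to the infinite word `TTT...`). -/
theorem cost_le (hS : Free S) (h0 : [] ∉ S) (σ : Equiv.Perm S) (hσ : IsMin σ) (T : List α)
    (hT : IsSuper S T) : cost σ ≤ T.length := by
  sorry

/-! ROW C (file Text.lean) -/

theorem pathWord_length (h0 : [] ∉ S) (σ : Equiv.Perm S) (s : S) (k : ℕ) :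
    (pathWord σ s k).length = startPos σ s k + ((σ ^ k) s).1.length := by
  sorry

theorem pathWord_prefix (σ : Equiv.Perm S) (s : S) {k l : ℕ} (h : k ≤ l) :
    pathWord σ s k <+: pathWord σ s l := by
  sorry

/-- the `i`-th string occurs at its start -/
theorem text_occ (h0 : [] ∉ S) (σ : Equiv.Perm S) (s : S) (a : α) (i : ℕ) :
    OccAt ((σ ^ i) s).1 (text σ s a) (startPos σ s i) := by
  sorry

theorem pathWord_occ (h0 : [] ∉ S) (σ : Equiv.Perm S) (s : S) (a : α) (k : ℕ) :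
    OccAt (pathWord σ s k) (text σ s a) 0 := by
  sorry

theorem text_periodic (h0 : [] ∉ S) (σ : Equiv.Perm S) (s : S) (a : α) (n : ℕ) :
    text σ s a (n + per σ s) = text σ s a n := by
  sorry

theorem per_pos (h0 : [] ∉ S) (σ : Equiv.Perm S) (s : S) : 0 < per σ s := by
  sorry

/-- Every window of length `z + 1` lies in one string, if all overlaps are at least `z`. -/
theorem text_window (h0 : [] ∉ S) (σ : Equiv.Perm S) (s : S) (a : α) (z : ℕ)
    (hz : ∀ i : ℕ, z ≤ ov ((σ ^ i) s).1 ((σ ^ (i + 1)) s).1) (c : ℕ) :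
    ∃ i : ℕ, List.ofFn (fun k : Fin (z + 1) => text σ s a (c + k)) <:+: ((σ ^ i) s).1 := by
  sorry

/-! ROW C2 (file Cycle.lean) -/

/-- the cycle as a finset: sum of distances over the cycle is `per`. -/
theorem sum_cycle (σ : Equiv.Perm S) (s : S) :
    ∑ t ∈ univ.filter (fun t => σ.SameCycle s t), dist σ t = per σ s := by
  sorry

theorem sum_per (σ : Equiv.Perm S) (B : Finset S) (hB : IsOpening σ B) :
    ∑ b ∈ B, per σ b = cost σ := by
  sorry

theorem openWord_length (h0 : [] ∉ S) (σ : Equiv.Perm S) (s : S) :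
    (openWord σ s).length = per σ s + ov (σ⁻¹ s).1 s.1 := by
  sorry

/-- `openWord` contains all strings of the cycle. -/
theorem infix_openWord (h0 : [] ∉ S) (σ : Equiv.Perm S) (s t : S) (h : σ.SameCycle s t) :
    t.1 <:+: openWord σ s := by
  sorry

/-- The full lap `s → σ s → ... → s`. -/
theorem lap_word (h0 : [] ∉ S) (σ : Equiv.Perm S) (s : S) :
    s.1 <+: pathWord σ s (cyc σ s) ∧ s.1 <:+ pathWord σ s (cyc σ s) ∧
      openWord σ s <:+: pathWord σ s (cyc σ s) ∧
      (pathWord σ s (cyc σ s)).length = per σ s + s.1.length := by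
  sorry

/-! ROW D (file Insert.lean) -/

/-- Insertion of laps: process the strings by decreasing position in `T`. -/
theorem insert_laps {ι : Type*} (I : Finset ι) (s e w : ι → List α) (T : List α)
    (hT : ∀ i ∈ I, s i <:+: T) (hne : ∀ i ∈ I, s i ≠ [])
    (hfree : ∀ i ∈ I, ∀ j ∈ I, s i <:+: s j → i = j)
    (hp : ∀ i ∈ I, s i <+: e i) (hs : ∀ i ∈ I, s i <:+ e i) (hw : ∀ i ∈ I, w i <:+: e i) :
    ∃ H : List α, (∀ i ∈ I, w i <:+: H) ∧
      H.length + ∑ i ∈ I, (s i).length ≤ T.length + ∑ i ∈ I, (e i).length := by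
  sorry

/-- `OPT(W) ≤ OPT + CC`. -/
theorem opt_le (hS : Free S) (h0 : [] ∉ S) (σ : Equiv.Perm S) (B : Finset S)
    (hB : IsOpening σ B) (T : List α) (hT : IsSuper S T) :
    ∃ H : List α, (∀ b ∈ B, openWord σ b <:+: H) ∧ H.length ≤ T.length + cost σ := by
  sorry

/-! ROW E (helper7, file Vale/Agent/P333/Rings.lean) -/

theorem rings_sum_le' {A : Type*} [DecidableEq A] (T : List A) {I : Type*} [Fintype I]
    (pi z : I → ℕ) (u : I → ℕ → A) (hper : ∀ i n, u i (n + pi i) = u i n)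
    (hprim : ∀ i q, 0 < q → q < pi i → ∃ n, u i (n + q) ≠ u i n) (hpos : ∀ i, 0 < pi i)
    (hlt : ∀ i, pi i < z i)
    (hnc : ∀ i j, i ≠ j → pi i = pi j → ∀ c, ∃ n, u i (n + c) ≠ u j n)
    (hT : ∀ i c, (List.ofFn (fun k : Fin (z i + 1) => u i (c + k))) <:+: T) :
    ∑ i, (z i - pi i) ≤ T.length := by
  sorry

/-! ROW F (file Sum.lean): `∑ |w_K| ≤ 2 CC + |T|`. -/

theorem hp_sum_le (hS : Free S) (h0 : [] ∉ S) (σ : Equiv.Perm S) (hσ : IsMin σ) (B : Finset S)
    (hB : IsOpening σ B) (T : List α) (hT : IsSuper S T) :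
    ∑ b ∈ B, (ov (σ⁻¹ b).1 b.1 - per σ b) ≤ T.length := by
  sorry

theorem openWord_sum_le (hS : Free S) (h0 : [] ∉ S) (σ : Equiv.Perm S) (hσ : IsMin σ)
    (B : Finset S) (hB : IsOpening σ B) (T : List α) (hT : IsSuper S T) :
    ∑ b ∈ B, (openWord σ b).length ≤ 2 * cost σ + T.length := by
  sorry

/-! ROW G (file Main.lean) -/

theorem main (hS : Free S) (h0 : [] ∉ S) (σ : Equiv.Perm S) (hσ : IsMin σ)
    (B : Finset S) (hB : IsOpening σ B) (δ : ℝ) (hδ0 : 0 ≤ δ) (hδ1 : δ ≤ 1) (G : List α)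
    (hG : ∀ b ∈ B, openWord σ b <:+: G)
    (hδ : ∀ H : List α, (∀ b ∈ B, openWord σ b <:+: H) →
      δ * ((∑ b ∈ B, ((openWord σ b).length : ℝ)) - H.length) ≤
        (∑ b ∈ B, ((openWord σ b).length : ℝ)) - G.length) :
    IsSuper S G ∧ ∀ T : List α, IsSuper S T → (G.length : ℝ) ≤ (3 - δ) * T.length := by
  sorry

/-- Minimum cycle covers and openings exist. -/
theorem exists_min (S : Finset (List α)) : ∃ σ : Equiv.Perm S, IsMin σ := by
  sorry

theorem exists_opening (σ : Equiv.Perm S) : ∃ B : Finset S, IsOpening σ B := by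
  sorry

end Vale.Agent.P333.ST
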