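import Mathlib

/-!
P333, ratio 7/3: surgery on minimum cycle covers (permutations).
-/

namespace Vale.Agent.P333.Surg

open Finset Equiv Equiv.Perm

variable {I : Type*} [Fintype I] [DecidableEq I]

/-- `sigma` is a minimum cycle cover for the costs `c` -/
def IsMin (c : I → I → ℕ) (σ : Perm I) : Prop :=
  ∀ τ : Perm I, ∑ i, c i (σ i) ≤ ∑ i, c i (τ i)

/-- replace `sigma` on the invariant set `Q` by `rho` -/
def glue (σ : Perm I) (Q : Finset I) (h : ∀ i, i ∉ Q ↔ σ i ∉ Q) (ρ : Perm I) : Perm I :=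
  (ofSubtype (σ.subtypePerm (p := fun i => i ∉ Q) (fun i => (h i).symm))) * ρ

omit [Fintype I] in
theorem glue_notMem (σ : Perm I) (Q : Finset I) (h : ∀ i, i ∉ Q ↔ σ i ∉ Q) (ρ : Perm I)
    (hρ : ∀ i ∉ Q, ρ i = i) (i : I) (hi : i ∉ Q) : glue σ Q h ρ i = σ i := by
  unfold glue
  rw [Perm.mul_apply, hρ i hi, ofSubtype_apply_of_mem (p := fun i => i ∉ Q) _ hi]
  rfl

omit [Fintype I] in
theorem mem_of_fix {Q : Finset I} {ρ : Perm I} (hρ : ∀ i ∉ Q, ρ i = i) {i : I} (hi : i ∈ Q) :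
    ρ i ∈ Q := by
  by_contra h
  have h1 := hρ _ h
  have h2 := ρ.injective h1
  rw [h2] at h
  exact h hi

omit [Fintype I] in
theorem glue_mem (σ : Perm I) (Q : Finset I) (h : ∀ i, i ∉ Q ↔ σ i ∉ Q) (ρ : Perm I)
    (hρ : ∀ i ∉ Q, ρ i = i) (i : I) (hi : i ∈ Q) : glue σ Q h ρ i = ρ i := by
  unfold glue
  rw [Perm.mul_apply, ofSubtype_apply_of_not_mem]
  simpa using mem_of_fix hρ hi

/-- a minimum cycle cover is minimum on every invariant set -/
theorem min_on {c : I → I → ℕ} {σ : Perm I} (hmin : IsMin c σ) (Q : Finset I)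
    (h : ∀ i, i ∈ Q ↔ σ i ∈ Q) (ρ : Perm I) (hρ : ∀ i ∉ Q, ρ i = i) :
    ∑ i ∈ Q, c i (σ i) ≤ ∑ i ∈ Q, c i (ρ i) := by
  have h' : ∀ i, i ∉ Q ↔ σ i ∉ Q := fun i => not_congr (h i)
  have h1 := hmin (glue σ Q h' ρ)
  rw [← Finset.sum_add_sum_compl Q (fun i => c i (σ i)),
    ← Finset.sum_add_sum_compl Q (fun i => c i (glue σ Q h' ρ i))] at h1
  have h2 : ∑ i ∈ Q, c i (glue σ Q h' ρ i) = ∑ i ∈ Q, c i (ρ i) :=
    Finset.sum_congr rfl fun i hi => by rw [glue_mem σ Q h' ρ hρ i hi]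
  have h3 : ∑ i ∈ Qᶜ, c i (glue σ Q h' ρ i) = ∑ i ∈ Qᶜ, c i (σ i) :=
    Finset.sum_congr rfl fun i hi => by
      rw [glue_notMem σ Q h' ρ hρ i (Finset.mem_compl.1 hi)]
  rw [h2, h3] at h1
  omega

/-- cyclic cost of a list -/
def cyc (c : I → I → ℕ) (L : List I) : ℕ :=
  ∑ j : Fin L.length, c L[j] (L[((j : ℕ) + 1) % L.length]'(Nat.mod_lt _ (j.pos)))

omit [Fintype I] in
theorem sum_formPerm (c : I → I → ℕ) (L : List I) (hL : L.Nodup) :
    ∑ i ∈ L.toFinset, c i (L.formPerm i) = cyc c L := by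
  unfold cyc
  symm
  refine Finset.sum_bij (fun (j : Fin L.length) _ => L[j]) ?_ ?_ ?_ ?_
  · intro j _
    simp
  · intro j _ j' _ hjj
    have := (List.Nodup.getElem_inj_iff hL).1 hjj
    exact Fin.ext this
  · intro i hi
    rw [List.mem_toFinset] at hi
    obtain ⟨n, hn, rfl⟩ := List.getElem_of_mem hi
    exact ⟨⟨n, hn⟩, Finset.mem_univ _, rfl⟩
  · intro j _
    have := List.formPerm_apply_getElem L hL (j : ℕ) j.2
    rw [show L.formPerm L[j] = L.formPerm (L[(j : ℕ)]'j.2) from rfl, this]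

/-- a minimum cycle cover costs on an invariant set at most the cyclic cost of every ordering of
this set -/
theorem min_cyc {c : I → I → ℕ} {σ : Perm I} (hmin : IsMin c σ) (L : List I) (hL : L.Nodup)
    (h : ∀ i, i ∈ L ↔ σ i ∈ L) : ∑ i ∈ L.toFinset, c i (σ i) ≤ cyc c L := by
  rw [← sum_formPerm c L hL]
  apply min_on hmin
  · intro i
    rw [List.mem_toFinset, List.mem_toFinset]
    exact h i
  · intro i hi
    rw [List.mem_toFinset] at hi
    exact List.formPerm_apply_of_notMem hi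

/-- the set of points of the cycle of `a` -/
def orb (σ : Perm I) (a : I) : Finset I := univ.filter fun i => σ.SameCycle a i

theorem mem_orb (σ : Perm I) (a i : I) : i ∈ orb σ a ↔ σ.SameCycle a i := by simp [orb]

theorem orb_inv (σ : Perm I) (a i : I) : i ∈ orb σ a ↔ σ i ∈ orb σ a := by
  rw [mem_orb, mem_orb, sameCycle_apply_right]

theorem orb_self (σ : Perm I) (a : I) : a ∈ orb σ a := by
  rw [mem_orb]

/-- the length of the cycle -/
noncomputable def len (σ : Perm I) (a : I) : ℕ := Function.minimalPeriod σ a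

omit [DecidableEq I] in
theorem len_pos (σ : Perm I) (a : I) : 0 < len σ a := by
  unfold len
  apply Function.minimalPeriod_pos_of_mem_periodicPts
  exact ⟨orderOf σ, orderOf_pos σ, by
    rw [Function.IsPeriodicPt, Function.IsFixedPt, ← Perm.coe_pow, pow_orderOf_eq_one]
    rfl⟩

theorem orb_eq_image (σ : Perm I) (a : I) :
    orb σ a = (range (len σ a)).image fun j => σ^[j] a := by
  ext i
  rw [mem_orb, mem_image]
  constructor
  · intro h
    obtain ⟨n, hn⟩ := h.exists_nat_pow_eq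
    refine ⟨n % len σ a, mem_range.2 (Nat.mod_lt _ (len_pos σ a)), ?_⟩
    have : σ^[n % len σ a] a = σ^[n] a := Function.iterate_mod_minimalPeriod_eq
    rw [this, ← Perm.coe_pow]
    exact hn
  · rintro ⟨j, _, rfl⟩
    refine ⟨j, ?_⟩
    rw [zpow_natCast, Perm.coe_pow]

theorem sum_orb (σ : Perm I) (a : I) (f : I → ℕ) :
    ∑ i ∈ orb σ a, f i = ∑ j ∈ range (len σ a), f (σ^[j] a) := by
  rw [orb_eq_image, sum_image]
  intro i hi j hj hij
  have := Function.iterate_injOn_Iio_minimalPeriod (f := σ) (x := a)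
  exact this (by simpa [len] using hi) (by simpa [len] using hj) hij

/-- the cycles of `sigma` -/
abbrev Cycles (σ : Perm I) : Type _ := Quotient (SameCycle.setoid σ)

noncomputable instance (σ : Perm I) : Fintype (Cycles σ) := Fintype.ofFinite _

/-- a point of a cycle -/
noncomputable def rep {σ : Perm I} (q : Cycles σ) : I := q.out

theorem sum_cycles (σ : Perm I) (f : I → ℕ) :
    ∑ i, f i = ∑ q : Cycles σ, ∑ i ∈ orb σ (rep q), f i := by
  classical
  rw [← Finset.sum_fiberwise univ (fun i => (Quotient.mk (SameCycle.setoid σ) i : Cycles σ)) f]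
  apply sum_congr rfl
  intro q _
  apply sum_congr _ (fun _ _ => rfl)
  ext i
  rw [mem_filter, mem_orb]
  constructor
  · rintro ⟨_, h⟩
    rw [← h]
    exact Quotient.exact (s := SameCycle.setoid σ)
      ((Quotient.out_eq (Quotient.mk (SameCycle.setoid σ) i)))
  · intro h
    refine ⟨mem_univ _, ?_⟩
    rw [← Quotient.out_eq q]
    exact Quotient.sound (s := SameCycle.setoid σ) h.symm

omit [Fintype I] [DecidableEq I] in
theorem rep_ne {σ : Perm I} {q q' : Cycles σ} (h : q ≠ q') : ¬ σ.SameCycle (rep q) (rep q') := by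
  intro h'
  apply h
  rw [← Quotient.out_eq q, ← Quotient.out_eq q']
  exact Quotient.sound (s := SameCycle.setoid σ) h'

theorem orb_disjoint {σ : Perm I} {a b : I} (h : ¬ σ.SameCycle a b) :
    Disjoint (orb σ a) (orb σ b) := by
  rw [Finset.disjoint_left]
  intro i hi hj
  rw [mem_orb] at hi hj
  exact h (hi.trans hj.symm)

theorem orb_congr {σ : Perm I} {a b : I} (h : σ.SameCycle a b) : orb σ a = orb σ b := by
  ext i
  rw [mem_orb, mem_orb]
  exact ⟨fun h' => h.symm.trans h', fun h' => h.trans h'⟩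

/-- minimality on one cycle -/
theorem min_orb {c : I → I → ℕ} {σ : Perm I} (hmin : IsMin c σ) (a : I) (L : List I)
    (hL : L.Nodup) (h : ∀ i, i ∈ L ↔ σ.SameCycle a i) :
    ∑ j ∈ range (len σ a), c (σ^[j] a) (σ^[j + 1] a) ≤ cyc c L := by
  have h1 := min_cyc hmin L hL (fun i => by rw [h, h, sameCycle_apply_right])
  have h2 : L.toFinset = orb σ a := by
    ext i; rw [List.mem_toFinset, h, mem_orb]
  rw [h2, sum_orb] at h1
  simpa only [Function.iterate_succ_apply'] using h1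

/-- minimality on two cycles -/
theorem min_orb_two {c : I → I → ℕ} {σ : Perm I} (hmin : IsMin c σ) (a b : I)
    (hab : ¬ σ.SameCycle a b) (L : List I)
    (hL : L.Nodup) (h : ∀ i, i ∈ L ↔ σ.SameCycle a i ∨ σ.SameCycle b i) :
    ∑ j ∈ range (len σ a), c (σ^[j] a) (σ^[j + 1] a) +
      ∑ j ∈ range (len σ b), c (σ^[j] b) (σ^[j + 1] b) ≤ cyc c L := by
  have h1 := min_cyc hmin L hL
    (fun i => by rw [h, h, sameCycle_apply_right, sameCycle_apply_right])
  have h2 : L.toFinset = orb σ a ∪ orb σ b := by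
    ext i; rw [List.mem_toFinset, h, mem_union, mem_orb, mem_orb]
  rw [h2, sum_union (orb_disjoint hab), sum_orb, sum_orb] at h1
  simpa only [Function.iterate_succ_apply'] using h1

end Vale.Agent.P333.Surg
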