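import Vale.Agent.P333.ST.Basics
import Vale.Agent.P333.ST.Cyc

/-! P333, ratio `3 - δ`, row C: the words of `Defs.lean` are windows of the cyclic text. -/

namespace Vale.Agent.P333.ST

open Finset
open Vale.Agent.P333.Cyc

set_option linter.unusedSectionVars false

variable {α : Type*} [DecidableEq α] {S : Finset (List α)}

theorem cyc_pos (σ : Equiv.Perm S) (s : S) : 0 < cyc σ s :=
  Function.minimalPeriod_pos_of_mem_periodicPts (by
    obtain ⟨n, hn, h⟩ := (isOfFinOrder_of_finite σ).exists_pow_eq_one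
    refine ⟨n, hn, ?_⟩
    rw [Function.IsPeriodicPt, Function.IsFixedPt, ← Equiv.Perm.coe_pow, h]
    rfl)

theorem pow_cyc (σ : Equiv.Perm S) (s : S) : (σ ^ cyc σ s) s = s := by
  have := Function.iterate_minimalPeriod (f := σ) (x := s)
  rw [Equiv.Perm.coe_pow]
  exact this

/-- the strings and overlaps around the cycle of `s` -/
theorem cycData (h0 : [] ∉ S) (σ : Equiv.Perm S) (s : S) :
    CycData (fun n => ((σ ^ n) s).1) (fun n => ov ((σ ^ n) s).1 ((σ ^ (n + 1)) s).1)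
      (cyc σ s) where
  kpos := cyc_pos σ s
  per_s := by
    intro i
    rw [pow_add, Equiv.Perm.mul_apply, pow_cyc]
  per_o := by
    intro i
    have e : i + cyc σ s + 1 = (i + 1) + cyc σ s := by omega
    rw [e, pow_add, pow_add σ (i + 1), Equiv.Perm.mul_apply, Equiv.Perm.mul_apply, pow_cyc]
  lt := fun i => ov_lt_left h0 _ _
  le := fun i => (ov_lt_right h0 _ _).le
  ov := fun i => (ov_isOv (nonempty_of_mem h0 _) (nonempty_of_mem h0 _)).2.2.symm

theorem pow_succ_apply (σ : Equiv.Perm S) (s : S) (i : ℕ) : (σ ^ (i + 1)) s = σ ((σ ^ i) s) := by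
  rw [pow_succ', Equiv.Perm.mul_apply]

theorem pos_eq (σ : Equiv.Perm S) (s : S) (i : ℕ) :
    pos (fun n => ((σ ^ n) s).1) (fun n => ov ((σ ^ n) s).1 ((σ ^ (n + 1)) s).1) i
      = startPos σ s i := by
  unfold pos startPos dist
  refine Finset.sum_congr rfl fun j _ => ?_
  simp only [pow_succ_apply]

theorem per_eq (σ : Equiv.Perm S) (s : S) : startPos σ s (cyc σ s) = per σ s := rfl

/-- `u` is a text of the cycle of `s`. -/
abbrev IsTx (σ : Equiv.Perm S) (s : S) (u : ℕ → α) : Prop :=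
  IsText (fun n => ((σ ^ n) s).1) (fun n => ov ((σ ^ n) s).1 ((σ ^ (n + 1)) s).1) (cyc σ s) u

theorem exists_tx (h0 : [] ∉ S) (σ : Equiv.Perm S) (s : S) : ∃ u : ℕ → α, IsTx σ s u :=
  (cycData h0 σ s).exists_isText

theorem startPos_succ (σ : Equiv.Perm S) (s : S) (i : ℕ) :
    startPos σ s (i + 1) = startPos σ s i + dist σ ((σ ^ i) s) := by
  simp [startPos, Finset.sum_range_succ]

theorem tx_win (σ : Equiv.Perm S) (s : S) {u : ℕ → α} (hu : IsTx σ s u)
    (i : ℕ) : win u (startPos σ s i) ((σ ^ i) s).1.length = ((σ ^ i) s).1 := by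
  have := hu.win_eq i
  rwa [pos_eq] at this

theorem tx_per (σ : Equiv.Perm S) (s : S) {u : ℕ → α} (hu : IsTx σ s u) (n : ℕ) :
    u (n + per σ s) = u n := by
  have := hu.period n
  rwa [pos_eq] at this

theorem per_pos (h0 : [] ∉ S) (σ : Equiv.Perm S) (s : S) : 0 < per σ s := by
  have := (cycData h0 σ s).per_pos
  rwa [pos_eq] at this

theorem pathWord_eq (h0 : [] ∉ S) (σ : Equiv.Perm S) (s : S) {u : ℕ → α} (hu : IsTx σ s u)
    (k : ℕ) : pathWord σ s k = win u 0 (startPos σ s k + ((σ ^ k) s).1.length) := by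
  induction k with
  | zero =>
    have := tx_win σ s hu 0
    simp only [startPos, Finset.range_zero, Finset.sum_empty, pow_zero, Equiv.Perm.one_apply,
      zero_add] at this ⊢
    rw [this, pathWord]
  | succ k ih =>
    have h1 := tx_win σ s hu (k + 1)
    have h2 := dist_add_ov h0 σ ((σ ^ k) s)
    rw [← pow_succ_apply] at h2
    have h3 := ov_lt_right h0 ((σ ^ k) s) ((σ ^ (k + 1)) s)
    have h4 := startPos_succ σ s k
    set o := ov ((σ ^ k) s).1 ((σ ^ (k + 1)) s).1 with ho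
    rw [pathWord, ih, ← ho]
    have e1 : startPos σ s (k + 1) + ((σ ^ (k + 1)) s).1.length
        = (startPos σ s k + ((σ ^ k) s).1.length) + (((σ ^ (k + 1)) s).1.length - o) := by
      rw [h4]
      omega
    conv_rhs => rw [e1, win_add]
    congr 1
    conv_lhs => rw [← h1]
    have e2 : ((σ ^ (k + 1)) s).1.length = o + (((σ ^ (k + 1)) s).1.length - o) := by omega
    conv_lhs => rw [e2, win_add]
    rw [List.drop_left' (by simp)]
    congr 1
    rw [h4]
    omega

theorem pow_pred_cyc (σ : Equiv.Perm S) (s : S) : (σ ^ (cyc σ s - 1)) s = σ⁻¹ s := by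
  have h := pow_succ_apply σ s (cyc σ s - 1)
  rw [Nat.sub_add_cancel (cyc_pos σ s), pow_cyc] at h
  rw [Equiv.Perm.eq_inv_iff_eq]
  exact h.symm

theorem openWord_eq (h0 : [] ∉ S) (σ : Equiv.Perm S) (s : S) {u : ℕ → α} (hu : IsTx σ s u) :
    openWord σ s = win u 0 (per σ s + ov (σ⁻¹ s).1 s.1) := by
  rw [openWord, pathWord_eq h0 σ s hu, pow_pred_cyc]
  congr 1
  have h := startPos_succ σ s (cyc σ s - 1)
  rw [Nat.sub_add_cancel (cyc_pos σ s), per_eq, pow_pred_cyc] at h
  have h2 := dist_add_ov h0 σ (σ⁻¹ s)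
  rw [show σ (σ⁻¹ s) = s from σ.apply_symm_apply s] at h2
  rw [h]
  omega

theorem openWord_length (h0 : [] ∉ S) (σ : Equiv.Perm S) (s : S) :
    (openWord σ s).length = per σ s + ov (σ⁻¹ s).1 s.1 := by
  obtain ⟨u, hu⟩ := exists_tx h0 σ s
  rw [openWord_eq h0 σ s hu]
  simp

/-- the lap word `s → σ s → ... → s` -/
theorem lap_word (h0 : [] ∉ S) (σ : Equiv.Perm S) (s : S) :
    s.1 <+: pathWord σ s (cyc σ s) ∧ s.1 <:+ pathWord σ s (cyc σ s) ∧
      openWord σ s <+: pathWord σ s (cyc σ s) ∧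
      (pathWord σ s (cyc σ s)).length = per σ s + s.1.length := by
  obtain ⟨u, hu⟩ := exists_tx h0 σ s
  have e : pathWord σ s (cyc σ s) = win u 0 (per σ s + s.1.length) := by
    rw [pathWord_eq h0 σ s hu, per_eq, pow_cyc]
  have h1 := hu.prefix_lap 0
  have h2 := hu.suffix_lap 0
  rw [pos_eq, pos_eq, per_eq] at h1 h2
  simp only [startPos, Finset.range_zero, Finset.sum_empty, pow_zero, Equiv.Perm.one_apply]
    at h1 h2
  refine ⟨?_, ?_, ?_, ?_⟩
  · rw [e]; exact h1
  · rw [e]; exact h2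
  · rw [e, openWord_eq h0 σ s hu]
    apply win_prefix
    have := ov_lt_right h0 (σ⁻¹ s) s
    omega
  · rw [e]; simp

theorem infix_openWord (h0 : [] ∉ S) (σ : Equiv.Perm S) (s t : S) (h : σ.SameCycle s t) :
    t.1 <:+: openWord σ s := by
  obtain ⟨u, hu⟩ := exists_tx h0 σ s
  obtain ⟨j, hj⟩ : ∃ j : ℕ, (σ ^ j) s = t := by
    obtain ⟨j, -, hj⟩ := h.exists_pow_eq'
    exact ⟨_, hj⟩
  have h1 := hu.infix_opened (cyc σ s - 1) j
  rw [pos_eq, pos_eq, per_eq, Nat.sub_add_cancel (cyc_pos σ s), per_eq, hj] at h1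
  simp only [pow_cyc, pow_pred_cyc] at h1
  rw [openWord_eq h0 σ s hu]
  have h2 := win_period u (tx_per σ s hu) 0 (per σ s + ov (σ⁻¹ s).1 s.1)
  rw [zero_add] at h2
  rwa [h2] at h1

/-- every window of length `z + 1` of the text lies inside one of the strings of the cycle -/
theorem tx_window (σ : Equiv.Perm S) (s : S) {u : ℕ → α} (hu : IsTx σ s u) (z : ℕ)
    (hz : ∀ t : S, σ.SameCycle s t → z ≤ ov t.1 (σ t).1) (n : ℕ) :
    ∃ t : S, σ.SameCycle s t ∧ win u n (z + 1) <:+: t.1 := by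
  obtain ⟨i, hi⟩ := hu.win_infix_some z (fun i => by
    have := hz ((σ ^ i) s) ⟨i, by simp⟩
    simpa only [pow_succ_apply] using this) n
  exact ⟨(σ ^ i) s, ⟨i, by simp⟩, hi⟩

/-- every string of the cycle occurs in the text -/
theorem tx_occ (σ : Equiv.Perm S) (s : S) {u : ℕ → α} (hu : IsTx σ s u) (t : S)
    (h : σ.SameCycle s t) : ∃ p, win u p t.1.length = t.1 := by
  obtain ⟨j, hj⟩ : ∃ j : ℕ, (σ ^ j) s = t := by
    obtain ⟨j, -, hj⟩ := h.exists_pow_eq'
    exact ⟨_, hj⟩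
  refine ⟨startPos σ s j, ?_⟩
  have := tx_win σ s hu j
  rwa [hj] at this

end Vale.Agent.P333.ST
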